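import Vale.Agent.P074.Cells

open MeasureTheory Set ProbabilityTheory
open scoped ENNReal NNReal InnerProductSpace

namespace Vale.Agent.P074

lemma cdf_cont (α : Measure ℝ) [IsFiniteMeasure α] [NullSingletonClass α] :
    Continuous fun t => α.real (Iic t) := by
  set F : ℝ → ℝ := fun t => α.real (Iic t) with hF
  have hdiff : ∀ s t, s ≤ t → α.real (Ioc s t) = F t - F s := by
    intro s t hst
    have := measureReal_diff (μ := α) (Iic_subset_Iic.2 hst) measurableSet_Iic
    rw [Iic_sdiff_Iic] at this
    exact this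
  have h1 : Continuous fun t => ∫ x in (0 : ℝ)..t, (1 : ℝ) ∂α :=
    intervalIntegral.continuous_primitive (fun a b => intervalIntegrable_const) 0
  have h2 : F = fun t => F 0 + ∫ x in (0 : ℝ)..t, (1 : ℝ) ∂α := by
    funext t
    rcases le_total 0 t with h | h
    · rw [intervalIntegral.integral_of_le h]; simp [hdiff _ _ h]
    · rw [intervalIntegral.integral_of_ge h]; simp [hdiff _ _ h]
  rw [h2]; exact continuous_const.add h1

lemma pit (α : Measure ℝ) [IsProbabilityMeasure α] [NullSingletonClass α] :
    ∃ g : ℝ → unitInterval, Measurable g ∧ α.map g = volume := by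
  have hc : Continuous (cdf α) := by
    have := cdf_cont α
    simpa only [← cdf_eq_real] using this
  set g : ℝ → unitInterval := fun t => ⟨cdf α t, cdf_nonneg α t, cdf_le_one α t⟩
  have hg : Measurable g := hc.measurable.subtype_mk
  refine ⟨g, hg, Measure.ext_of_Iic _ _ fun a => ?_⟩
  rw [Measure.map_apply hg measurableSet_Iic, unitInterval.volume_Iic]
  have e : g ⁻¹' Iic a = {t | cdf α t ≤ a} := rfl
  rw [e]
  rcases a.2.2.eq_or_lt with h1 | h1
  · have : {t | cdf α t ≤ a} = univ := eq_univ_of_forall fun t => by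
      rw [mem_setOf_eq, h1]; exact cdf_le_one α t
    rw [this, h1]; simp
  rcases Set.eq_empty_or_nonempty {t | cdf α t ≤ a} with h0 | h0
  · have : (a : ℝ) ≤ 0 := ge_of_tendsto' (tendsto_cdf_atBot α) fun t => by
      by_contra h
      have : t ∈ {t | cdf α t ≤ a} := le_of_not_ge h
      rw [h0] at this; exact this
    rw [h0, measure_empty, ENNReal.ofReal_of_nonpos this]
  have hb : BddAbove {t | cdf α t ≤ a} := by
    obtain ⟨b, hb⟩ := Filter.eventually_atTop.1 ((tendsto_cdf_atTop α).eventually (lt_mem_nhds h1))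
    refine ⟨b, fun t ht => ?_⟩
    by_contra h
    exact absurd ht (not_le.2 (hb t (le_of_not_ge h)))
  have hs := (isClosed_le hc continuous_const).csSup_mem h0 hb
  set s := sSup {t | cdf α t ≤ a}
  have e2 : {t | cdf α t ≤ a} = Iic s := by
    ext t
    exact ⟨fun h => le_csSup hb h, fun h => (monotone_cdf α h).trans hs⟩
  have e3 : cdf α s = a := by
    refine le_antisymm hs ?_
    by_contra h
    have h2 : ∀ᶠ t in nhdsWithin s (Ioi s), cdf α t < a :=
      nhdsWithin_le_nhds (hc.continuousAt.eventually (gt_mem_nhds (lt_of_not_ge h)))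
    obtain ⟨t, ht, ht'⟩ := (h2.and self_mem_nhdsWithin).exists
    exact absurd (le_csSup hb ht.le) (not_le.2 ht')
  rw [e2, ← e3, ofReal_cdf]

variable {E : Type} [NormedAddCommGroup E] [InnerProductSpace ℝ E] [FiniteDimensional ℝ E]
  [MeasurableSpace E] [BorelSpace E]

lemma exists_transport {e : E} (he : e ≠ 0) (V : Set E) (ν : Measure E)
    (h0 : volume V ≠ 0) (h1 : volume V ≠ ⊤) (hν : ν univ = volume V) :
    ∃ S : E → E, Measurable S ∧ (volume.restrict V).map S = ν := by
  set l : E → ℝ := fun x => ⟪e, x⟫_ℝ with hl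
  have hlm : Measurable l := by fun_prop
  set α : Measure ℝ := (volume V)⁻¹ • (volume.restrict V).map l with hα
  have : IsProbabilityMeasure α := ⟨by
    rw [hα, Measure.smul_apply, Measure.map_apply hlm MeasurableSet.univ]
    simp [ENNReal.inv_mul_cancel h0 h1]⟩
  have : NullSingletonClass α := ⟨fun c => by
    rw [hα, Measure.smul_apply, Measure.map_apply hlm (measurableSet_singleton c),
      Measure.restrict_apply (hlm (measurableSet_singleton c)),
      measure_mono_null (s := l ⁻¹' {c} ∩ V) inter_subset_left (hyper_null he c)]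
    simp⟩
  obtain ⟨g, hg, hgm⟩ := pit α
  have : IsProbabilityMeasure ((volume V)⁻¹ • ν) := ⟨by
    rw [Measure.smul_apply, hν]; simp [ENNReal.inv_mul_cancel h0 h1]⟩
  obtain ⟨f, hf, hfm⟩ := Measure.exists_measurable_map_eq ((volume V)⁻¹ • ν)
  refine ⟨f ∘ g ∘ l, hf.comp (hg.comp hlm), ?_⟩
  rw [← hgm, hα, Measure.map_smul, Measure.map_smul, Measure.map_map hg hlm,
    Measure.map_map hf (hg.comp hlm)] at hfm
  have := congrArg (fun μ => volume V • μ) hfm
  simpa [smul_smul, ENNReal.mul_inv_cancel h0 h1] using this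

variable {ι : Type} [Fintype ι] [Nonempty ι]

lemma glue {K : Set E} (hK : MeasurableSet K) {y : ι → E} (hy : Function.Injective y) (ψ : ι → ℝ)
    {S : ι → E → E} (hS : ∀ i, Measurable (S i)) :
    ∃ T : E → E, Measurable T ∧ (∀ i, ∀ᵐ x ∂(volume.restrict (cell K y ψ i)), T x = S i x) ∧
      (volume.restrict K).map T = ∑ i, (volume.restrict (cell K y ψ i)).map (S i) := by
  classical
  have hdis : ∀ i j, i ≠ j → volume (cell K y ψ i ∩ cell K y ψ j) = 0 := by
    intro i j hij
    refine measure_mono_null ?_ (hyper_null (sub_ne_zero.2 (hy.ne hij)) (ψ i - ψ j))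
    rintro x ⟨h1, h2⟩
    have := h1.2 j; have := h2.2 i
    simp only [mem_setOf_eq, inner_sub_left]; linarith
  set T : E → E := fun x => ∑ i, (cell K y ψ i).indicator (S i) x
  have hT : Measurable T :=
    Finset.measurable_sum _ fun i _ => (hS i).indicator (cell_meas hK y ψ i)
  have h1 : ∀ i, ∀ᵐ x ∂(volume.restrict (cell K y ψ i)), T x = S i x := by
    intro i
    have : ∀ᵐ x ∂(volume : Measure E), ∀ j, j ≠ i → x ∉ cell K y ψ i ∩ cell K y ψ j := by
      rw [ae_all_iff]
      intro j
      by_cases hj : j = i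
      · simp [hj]
      · filter_upwards [measure_eq_zero_iff_ae_notMem.1 (hdis i j (Ne.symm hj))] with x hx _
        exact hx
    filter_upwards [ae_restrict_of_ae this, ae_restrict_mem (cell_meas hK y ψ i)] with x hx hxi
    simp only [T]
    rw [Finset.sum_eq_single i (fun j _ hj => indicator_of_notMem (fun h => hx j hj ⟨hxi, h⟩) _)
      (by simp), indicator_of_mem hxi]
  refine ⟨T, hT, h1, ?_⟩
  have hU : K = ⋃ i, cell K y ψ i := by
    refine Subset.antisymm (fun x hx => mem_iUnion.2 (exists_cell y ψ hx))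
      (iUnion_subset (cell_sub K y ψ))
  have h2 : volume.restrict K = ∑ i, volume.restrict (cell K y ψ i) := by
    conv_lhs => rw [hU]
    rw [Measure.restrict_iUnion_ae (fun i j hij => hdis i j hij)
      (fun i => (cell_meas hK y ψ i).nullMeasurableSet), Measure.sum_fintype]
  rw [h2, Measure.map_finset_sum hT.aemeasurable]
  exact Finset.sum_congr rfl fun i _ => Measure.map_congr (h1 i)

end Vale.Agent.P074
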