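import Vale.Agent.P074.GN
import Vale.Agent.P074.Trans

open MeasureTheory Set
open scoped ENNReal NNReal InnerProductSpace

namespace Vale.Agent.P074

variable {E : Type} [NormedAddCommGroup E] [InnerProductSpace ℝ E] [FiniteDimensional ℝ E]
  [MeasurableSpace E] [BorelSpace E]

omit [FiniteDimensional ℝ E] [MeasurableSpace E] [BorelSpace E] in
lemma exists_perp (hd : 2 ≤ Module.finrank ℝ E) (w : E) : ∃ n : E, n ≠ 0 ∧ ⟪n, w⟫_ℝ = 0 := by
  by_contra h
  push Not at h
  have := LinearMap.finrank_le_finrank_of_injective (f := (innerSL ℝ w).toLinearMap) (by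
    rw [injective_iff_map_eq_zero]
    intro n hn
    by_contra hn0
    exact h n hn0 (by rw [real_inner_comm]; simpa using hn))
  simp at this
  omega

lemma no_collision (hd : 2 ≤ Module.finrank ℝ E) {ι : Type} [Fintype ι] (a v : ι → E) {δ : ℝ}
    (hδ : 0 < δ) : ∃ y : ι → E, (∀ i, ‖y i - a i‖ ≤ δ) ∧
      ∀ t : ℝ, Function.Injective fun i => y i + t • v i := by
  set c : ι → ℝ := fun i => ((Fintype.equivFin ι i : ℕ) : ℝ) with hc
  have hcinj : Function.Injective c := fun i j h => (Fintype.equivFin ι).injective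
    (Fin.ext (by simpa [hc] using h))
  have hcb : ∀ i, |c i| ≤ Fintype.card ι + 1 := fun i => by
    rw [abs_of_nonneg (by positivity)]
    have : ((Fintype.equivFin ι i : ℕ) : ℝ) ≤ Fintype.card ι := by
      exact_mod_cast (Fintype.equivFin ι i).2.le
    simp only [hc]; linarith
  set B : ι × ι → Set E := fun ij =>
    {z | ij.1 ≠ ij.2 ∧ ∃ t : ℝ, a ij.1 + c ij.1 • z + t • v ij.1 = a ij.2 + c ij.2 • z + t • v ij.2}
  have hB : volume (⋃ ij, B ij) = 0 := by
    refine measure_iUnion_null fun ⟨i, j⟩ => ?_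
    by_cases hij : i = j
    · have : B (i, j) = ∅ := by ext z; simp [B, hij]
      rw [this, measure_empty]
    obtain ⟨n, hn, hn'⟩ := exists_perp hd (v i - v j)
    have hcij : c i - c j ≠ 0 := sub_ne_zero.2 (hcinj.ne hij)
    refine measure_mono_null ?_ (hyper_null hn (⟪n, a j - a i⟫_ℝ / (c i - c j)))
    rintro z ⟨-, t, ht⟩
    have := congrArg (fun w => ⟪n, w⟫_ℝ) ht
    simp only [inner_add_right, inner_smul_right] at this
    rw [inner_sub_right] at hn'
    rw [mem_setOf_eq, eq_div_iff hcij, inner_sub_right]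
    have e : ⟪n, v i⟫_ℝ = ⟪n, v j⟫_ℝ := by linarith
    rw [e] at this
    linarith
  have hpos : 0 < δ / (Fintype.card ι + 1) := by positivity
  obtain ⟨z, hz, hz'⟩ : ∃ z ∈ Metric.ball (0 : E) (δ / (Fintype.card ι + 1)), z ∉ ⋃ ij, B ij := by
    by_contra h
    push Not at h
    exact (Metric.measure_ball_pos volume (0 : E) hpos).ne' (measure_mono_null h hB)
  refine ⟨fun i => a i + c i • z, fun i => ?_, fun t i j hij => ?_⟩
  · rw [add_sub_cancel_left, norm_smul, Real.norm_eq_abs]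
    have : ‖z‖ ≤ δ / (Fintype.card ι + 1) := le_of_lt (by simpa using hz)
    refine (mul_le_mul (hcb i) this (norm_nonneg _) (by positivity)).trans (le_of_eq ?_)
    field_simp
  · by_contra hne
    exact hz' (mem_iUnion.2 ⟨(i, j), hne, t, hij⟩)

lemma quant (π : Measure (E × E)) [IsFiniteMeasure π] {D δ : ℝ} (hδ : 0 < δ)
    (hD : ∀ᵐ p ∂π, ‖p.1‖ ≤ D ∧ ‖p.2‖ ≤ D) :
    ∃ (ι : Type) (_ : Fintype ι) (a b : ι → E) (A : ι → Set (E × E)),
      (∀ i, MeasurableSet (A i)) ∧ (∀ i, 0 < π.real (A i)) ∧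
      (∀ i, ∀ p ∈ A i, ‖p.1 - a i‖ ≤ δ ∧ ‖p.2 - b i‖ ≤ δ ∧ ‖p.1‖ ≤ D ∧ ‖p.2‖ ≤ D) ∧
      ∀ F : E × E → ℝ, Integrable F π → ∫ p, F p ∂π = ∑ i, ∫ p in A i, F p ∂π := by
  classical
  set Q : Set (E × E) := Metric.closedBall 0 D ×ˢ Metric.closedBall 0 D with hQ
  have hQc : IsCompact Q := (isCompact_closedBall _ _).prod (isCompact_closedBall _ _)
  set c := TopologicalSpace.denseSeq (E × E)
  obtain ⟨t, ht⟩ := hQc.elim_finite_subcover (fun k => Metric.ball (c k) δ)
    (fun _ => Metric.isOpen_ball) (fun p _ => by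
      obtain ⟨k, hk⟩ := (TopologicalSpace.denseRange_denseSeq (E × E)).exists_dist_lt p hδ
      exact mem_iUnion.2 ⟨k, hk⟩)
  set U : ℕ → Set (E × E) := fun k => if k ∈ t then Metric.ball (c k) δ ∩ Q else ∅ with hU
  have hUm : ∀ k, MeasurableSet (U k) := fun k => by
    simp only [hU]; split_ifs
    · exact measurableSet_ball.inter hQc.measurableSet
    · exact MeasurableSet.empty
  have hVm : ∀ k, MeasurableSet (disjointed U k) := MeasurableSet.disjointed hUm
  set s := t.filter fun k => π.real (disjointed U k) ≠ 0 with hs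
  refine ⟨s, inferInstance, fun i => (c i).1, fun i => (c i).2, fun i => disjointed U i,
    fun i => hVm i, fun i => ?_, fun i p hp => ?_, fun F hF => ?_⟩
  · exact lt_of_le_of_ne measureReal_nonneg (Finset.mem_filter.1 i.2).2.symm
  · have := disjointed_subset U i hp
    simp only [hU, (Finset.mem_filter.1 i.2).1, if_true] at this
    obtain ⟨h1, h2, h3⟩ := this
    rw [Metric.mem_ball, Prod.dist_eq, max_lt_iff, dist_eq_norm, dist_eq_norm] at h1
    exact ⟨h1.1.le, h1.2.le, by simpa using h2, by simpa using h3⟩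
  · have e1 : ∫ p, F p ∂π = ∫ p in ⋃ k, disjointed U k, F p ∂π := by
      rw [Measure.restrict_eq_self_of_ae_mem]
      filter_upwards [hD] with p hp
      have hpQ : p ∈ Q := ⟨by simpa using hp.1, by simpa using hp.2⟩
      rw [iUnion_disjointed]
      obtain ⟨k, hk, hk'⟩ := mem_iUnion₂.1 (ht hpQ)
      exact mem_iUnion.2 ⟨k, by simp only [hU, hk, if_true]; exact ⟨hk', hpQ⟩⟩
    rw [e1, integral_iUnion hVm (disjoint_disjointed U) hF.integrableOn,
      tsum_eq_sum (s := s), Finset.sum_coe_sort s fun k => ∫ p in disjointed U k, F p ∂π]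
    intro k hk
    refine setIntegral_measure_zero _ ?_
    by_cases hkt : k ∈ t
    · have : π.real (disjointed U k) = 0 := by
        by_contra h; exact hk (Finset.mem_filter.2 ⟨hkt, h⟩)
      simpa [Measure.real, ENNReal.toReal_eq_zero_iff] using this
    · refine measure_mono_null (disjointed_subset U k) ?_
      simp [hU, hkt]

omit [FiniteDimensional ℝ E] [MeasurableSpace E] [BorelSpace E] in
lemma exists_conj {G : Set E} (hG : G.Nonempty) {R : ℝ} (hGR : G ⊆ Metric.closedBall 0 R)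
    {φ : E → ℝ} {c : ℝ} (hφ : ∀ z ∈ G, c ≤ φ z) :
    ∃ χ : E → ℝ, Continuous χ ∧ (∀ y y', χ y ≤ χ y' + R * ‖y - y'‖) ∧
      (∀ z ∈ G, ∀ y, ⟪y, z⟫_ℝ - φ z ≤ χ y) ∧
      ∀ y b, (∀ z ∈ G, ⟪y, z⟫_ℝ - φ z ≤ b) → χ y ≤ b := by
  have hin : ∀ z ∈ G, ∀ y : E, ⟪y, z⟫_ℝ ≤ R * ‖y‖ := fun z hz y => by
    have : ‖z‖ ≤ R := by simpa using hGR hz
    exact (real_inner_le_norm _ _).trans (by nlinarith [norm_nonneg y])
  set χ : E → ℝ := fun y => sSup ((fun z => ⟪y, z⟫_ℝ - φ z) '' G)
  have h1 : ∀ z ∈ G, ∀ y, ⟪y, z⟫_ℝ - φ z ≤ χ y := fun z hz y =>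
    le_csSup ⟨R * ‖y‖ - c, by
      rintro _ ⟨z, hz, rfl⟩; linarith [hin z hz y, hφ z hz]⟩ ⟨z, hz, rfl⟩
  have h2 : ∀ y b, (∀ z ∈ G, ⟪y, z⟫_ℝ - φ z ≤ b) → χ y ≤ b := fun y b h =>
    csSup_le (hG.image _) (by rintro _ ⟨z, hz, rfl⟩; exact h z hz)
  have h3 : ∀ y y', χ y ≤ χ y' + R * ‖y - y'‖ := fun y y' => h2 _ _ fun z hz => by
    have := hin z hz (y - y')
    rw [inner_sub_left] at this
    linarith [h1 z hz y']
  refine ⟨χ, (LipschitzWith.of_le_add_mul' R fun y y' => ?_).continuous, h3, h1, h2⟩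
  rw [dist_eq_norm]; exact h3 y y'

variable {ι : Type} [Fintype ι] [Nonempty ι]

omit [FiniteDimensional ℝ E] [MeasurableSpace E] [BorelSpace E] in
lemma pot_lip {y : ι → E} {L : ℝ} (hy : ∀ i, ‖y i‖ ≤ L) (ψ : ι → ℝ) (x z : E) :
    |pot y ψ x - pot y ψ z| ≤ L * ‖x - z‖ := by
  have : ∀ x z : E, pot y ψ x ≤ pot y ψ z + L * ‖x - z‖ := fun x z => pot_le fun i => by
    have a1 := real_inner_le_norm (y i) (x - z)
    have a2 := mul_le_mul_of_nonneg_right (hy i) (norm_nonneg (x - z))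
    rw [inner_sub_right] at a1
    linarith [le_pot y ψ z i]
  rw [abs_le]
  constructor
  · have := this z x; rw [norm_sub_rev] at this; linarith
  · linarith [this x z]

omit [FiniteDimensional ℝ E] [MeasurableSpace E] [BorelSpace E] in
lemma pot_mid (y : ι → E) (ψ : ι → ℝ) (x h : E) :
    2 * pot y ψ x ≤ pot y ψ (x + h) + pot y ψ (x - h) := by
  have : pot y ψ x ≤ (pot y ψ (x + h) + pot y ψ (x - h)) / 2 := pot_le fun i => by
    have a1 := le_pot y ψ (x + h) i
    have a2 := le_pot y ψ (x - h) i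
    rw [inner_add_right] at a1; rw [inner_sub_right] at a2
    linarith
  linarith

lemma pot_half {K : Set E} (hK : IsCompact K) {R : ℝ} (hKR : K ⊆ Metric.closedBall 0 R)
    {y y' : ι → E} (hy : Function.Injective y) (ψ ψ' : ι → ℝ) :
    ∫ x in K, max (pot y ψ x - pot y' ψ' x) 0 ^ 2 ≤
      ∑ i, mass K y ψ i * (2 * R ^ 2 * ‖y i - y' i‖ ^ 2 + 2 * (ψ i - ψ' i) ^ 2) := by
  have c1 := pot_cont' y ψ
  have c2 := pot_cont' y' ψ'
  rw [sum_cells hK.measurableSet hy ψ
    ((Continuous.continuousOn (by fun_prop)).integrableOn_compact hK)]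
  refine Finset.sum_le_sum fun i _ => ?_
  refine (le_abs_self _).trans ?_
  rw [← Real.norm_eq_abs, mul_comm]
  refine norm_setIntegral_le_of_norm_le_const
    ((measure_mono (cell_sub _ _ _ _)).trans_lt hK.measure_lt_top) fun x hx => ?_
  rw [Real.norm_of_nonneg (sq_nonneg _)]
  have a1 := pot_eq hx
  have a2 := le_pot y' ψ' x i
  have a3 : ‖x‖ ≤ R := by simpa using hKR hx.1
  have a4 := real_inner_le_norm (y i - y' i) x
  have a5 := mul_le_mul_of_nonneg_left a3 (norm_nonneg (y i - y' i))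
  have hR : 0 ≤ R := (norm_nonneg _).trans a3
  rw [inner_sub_left] at a4
  have a6 : max (pot y ψ x - pot y' ψ' x) 0 ≤ ‖y i - y' i‖ * R + |ψ i - ψ' i| :=
    max_le (by linarith [neg_abs_le (ψ i - ψ' i)]) (by positivity)
  refine (pow_le_pow_left₀ (le_max_right _ _) a6 2).trans ?_
  rw [← sq_abs (ψ i - ψ' i)]
  nlinarith [sq_nonneg (‖y i - y' i‖ * R - |ψ i - ψ' i|)]

lemma pot_diff {K : Set E} (hK : IsCompact K) {R : ℝ} (hKR : K ⊆ Metric.closedBall 0 R)
    {y v : ι → E} (hy : Function.Injective y) (hy' : Function.Injective fun i => y i + v i)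
    {ψ ψ' m : ι → ℝ} (h : mass K y ψ = m) (h' : mass K (fun i => y i + v i) ψ' = m) :
    ∫ x in K, (pot y ψ x - pot (fun i => y i + v i) ψ' x) ^ 2 ≤
      4 * R ^ 2 * ∑ i, m i * ‖v i‖ ^ 2 + 4 * ∑ i, m i * (ψ' i - ψ i) ^ 2 := by
  have k1 := pot_half hK hKR (y' := fun i => y i + v i) hy ψ ψ'
  have k2 := pot_half hK hKR (y' := y) hy' ψ' ψ
  have c1 := pot_cont' y ψ
  have c2 := pot_cont' (fun i => y i + v i) ψ'
  rw [h] at k1; rw [h'] at k2
  simp only [sub_add_cancel_left, add_sub_cancel_left, norm_neg] at k1 k2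
  have e : ∀ a b : ℝ, (a - b) ^ 2 = max (a - b) 0 ^ 2 + max (b - a) 0 ^ 2 := fun a b => by
    rcases le_total a b with h | h
    · rw [max_eq_right (sub_nonpos.2 h), max_eq_left (sub_nonneg.2 h)]; ring
    · rw [max_eq_left (sub_nonneg.2 h), max_eq_right (sub_nonpos.2 h)]; ring
  simp only [e (pot y ψ _)]
  rw [integral_add ((Continuous.continuousOn (by fun_prop)).integrableOn_compact hK)
    ((Continuous.continuousOn (by fun_prop)).integrableOn_compact hK)]
  refine (add_le_add k1 k2).trans (le_of_eq ?_)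
  simp only [Finset.mul_sum, ← Finset.sum_add_distrib]
  exact Finset.sum_congr rfl fun i _ => by ring

lemma competitor {K : Set E} (hK : IsCompact K) {R L δ : ℝ}
    (hKR : K ⊆ Metric.closedBall 0 R) {y : ι → E} (hy : Function.Injective y)
    (ψ : ι → ℝ) {T : E → E} (hT : Measurable T)
    (hTL : ∀ᵐ x ∂(volume.restrict K), ‖T x‖ ≤ L) {e : E} (he : e ≠ 0)
    (hopt : ∀ S : E → E, Measurable S → (volume.restrict K).map S = (volume.restrict K).map T →
      ∫ x in K, ⟪S x, x⟫_ℝ ≤ ∫ x in K, ⟪T x, x⟫_ℝ)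
    (π : Measure (E × E)) [IsFiniteMeasure π] {f : E × E → E} (hf : Measurable f)
    (hmap : π.map f = (volume.restrict K).map T) {A : ι → Set (E × E)}
    (hA : ∀ i, MeasurableSet (A i)) (hm : ∀ i, mass K y ψ i = π.real (A i))
    (hm0 : ∀ i, 0 < π.real (A i))
    (hδ : ∀ i, ∀ p ∈ A i, ‖f p - y i‖ ≤ δ)
    (hsum : ∀ F : E × E → ℝ, Integrable F π → ∫ p, F p ∂π = ∑ i, ∫ p in A i, F p ∂π) :
    ∑ i, (⟪y i, mom K y ψ i⟫_ℝ - R * δ * mass K y ψ i) ≤ ∫ x in K, ⟪T x, x⟫_ℝ := by
  have : IsFiniteMeasure (volume.restrict K) := ⟨by simpa using hK.measure_lt_top⟩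
  have hfin : ∀ i, volume (cell K y ψ i) ≠ ⊤ := fun i =>
    ((measure_mono (cell_sub _ _ _ _)).trans_lt hK.measure_lt_top).ne
  have hπ : π = ∑ i, π.restrict (A i) := by
    ext s hs
    have := hsum (s.indicator 1) ((integrable_const 1).indicator hs)
    simp only [integral_indicator_one hs] at this
    rw [Measure.finset_sum_apply, ← ENNReal.toReal_eq_toReal_iff' (measure_ne_top _ _)
      (ENNReal.sum_ne_top.2 fun i _ => measure_ne_top _ _),
      ENNReal.toReal_sum fun i _ => measure_ne_top _ _]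
    exact this
  have hex : ∀ i, ∃ S : E → E, Measurable S ∧
      (volume.restrict (cell K y ψ i)).map S = (π.restrict (A i)).map f := by
    intro i
    have e1 : volume (cell K y ψ i) = π (A i) :=
      (ENNReal.toReal_eq_toReal_iff' (hfin i) (measure_ne_top _ _)).1 (hm i)
    refine exists_transport he _ _ ?_ (hfin i) ?_
    · rw [e1]; intro h; have := hm0 i; simp [Measure.real, h] at this
    · rw [Measure.map_apply hf MeasurableSet.univ, e1]; simp
  choose S hS hSm using hex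
  obtain ⟨U, hU, hU1, hU2⟩ := glue hK.measurableSet hy ψ hS
  have hU3 : (volume.restrict K).map U = (volume.restrict K).map T := by
    rw [hU2, ← hmap]
    conv_rhs => rw [hπ]
    rw [Measure.map_finset_sum hf.aemeasurable]
    exact Finset.sum_congr rfl fun i _ => hSm i
  refine le_trans ?_ (hopt U hU hU3)
  have hUL : ∀ᵐ x ∂(volume.restrict K), ‖U x‖ ≤ L := by
    have hms : MeasurableSet {z : E | ‖z‖ ≤ L} := measurableSet_le (by fun_prop) (by fun_prop)
    have := (ae_map_iff hT.aemeasurable hms).2 hTL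
    rw [← hU3] at this
    exact (ae_map_iff hU.aemeasurable hms).1 this
  have hin : IntegrableOn (fun x => ⟪U x, x⟫_ℝ) K volume := by
    refine Integrable.of_bound (Measurable.aestronglyMeasurable (by fun_prop)) (L * R) ?_
    filter_upwards [hUL, ae_restrict_mem hK.measurableSet] with x hx hxK
    have : ‖x‖ ≤ R := by simpa using hKR hxK
    exact (abs_real_inner_le_norm _ _).trans
      (mul_le_mul hx this (norm_nonneg _) ((norm_nonneg _).trans hx))
  rw [sum_cells hK.measurableSet hy ψ hin]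
  refine Finset.sum_le_sum fun i _ => ?_
  rw [← int_aff hK]
  refine integral_mono_ae (((Continuous.continuousOn (by fun_prop)).integrableOn_compact
    hK).mono_set (cell_sub _ _ _ _)) (hin.mono_set (cell_sub _ _ _ _)) ?_
  have hms : MeasurableSet {z : E | ‖z - y i‖ ≤ δ} := measurableSet_le (by fun_prop) (by fun_prop)
  have k1 : ∀ᵐ z ∂((π.restrict (A i)).map f), ‖z - y i‖ ≤ δ :=
    (ae_map_iff hf.aemeasurable hms).2 (by
      filter_upwards [ae_restrict_mem (hA i)] with p hp using hδ i p hp)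
  rw [← hSm i] at k1
  filter_upwards [(ae_map_iff (hS i).aemeasurable hms).1 k1, hU1 i,
    ae_restrict_mem (cell_meas hK.measurableSet y ψ i)] with x h1 h2 h3
  rw [h2]
  have a1 : ‖x‖ ≤ R := by simpa using hKR h3.1
  have a2 := (abs_le.1 (abs_real_inner_le_norm (S i x - y i) x)).1
  have a3 := mul_le_mul h1 a1 (norm_nonneg _) ((norm_nonneg _).trans h1)
  rw [inner_sub_left] at a2
  linarith

lemma gap {K : Set E} (hK : IsCompact K) (hKn : K.Nonempty) {R L δ : ℝ}
    (hKR : K ⊆ Metric.closedBall 0 R) {y : ι → E} (hy : Function.Injective y)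
    (hyL : ∀ i, ‖y i‖ ≤ L) (ψ : ι → ℝ) {T : E → E} (hT : Measurable T)
    (hTL : ∀ᵐ x ∂(volume.restrict K), ‖T x‖ ≤ L) {e : E} (he : e ≠ 0)
    (hopt : ∀ S : E → E, Measurable S → (volume.restrict K).map S = (volume.restrict K).map T →
      ∫ x in K, ⟪S x, x⟫_ℝ ≤ ∫ x in K, ⟪T x, x⟫_ℝ)
    (π : Measure (E × E)) [IsFiniteMeasure π] {f : E × E → E} (hf : Measurable f)
    (hmap : π.map f = (volume.restrict K).map T) {A : ι → Set (E × E)}
    (hA : ∀ i, MeasurableSet (A i)) (hm : ∀ i, mass K y ψ i = π.real (A i))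
    (hm0 : ∀ i, 0 < π.real (A i))
    (hδ : ∀ i, ∀ p ∈ A i, ‖f p - y i‖ ≤ δ)
    (hsum : ∀ F : E × E → ℝ, Integrable F π → ∫ p, F p ∂π = ∑ i, ∫ p in A i, F p ∂π) :
    ∃ g : E → ℝ, IntegrableOn g K volume ∧ ∫ x in K, g x ≤ 2 * R * δ * volume.real K ∧
      ∀ᵐ x ∂(volume.restrict K), 0 ≤ g x ∧ g x ≤ 4 * L * R ∧
        ∀ z ∈ K, pot y ψ x + ⟪T x, z - x⟫_ℝ - g x ≤ pot y ψ z := by
  have : IsFiniteMeasure (volume.restrict K) := ⟨by simpa using hK.measure_lt_top⟩
  have c1 := pot_cont' y ψ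
  obtain ⟨z0, hz0, hmin⟩ := hK.exists_isMinOn hKn c1.continuousOn
  have hR : 0 ≤ R := (norm_nonneg z0).trans (by simpa using hKR hz0)
  obtain ⟨κ, h0, h1, h2, h3⟩ := exists_conj hKn hKR (φ := pot y ψ) (c := pot y ψ z0) hmin
  have hint : ∀ F : E → ℝ, Continuous F → Integrable (fun x => F (T x)) (volume.restrict K) := by
    intro F hF
    obtain ⟨C, hC⟩ := (isCompact_closedBall (0 : E) L).exists_bound_of_continuousOn hF.continuousOn
    refine Integrable.of_bound (hF.measurable.comp hT).aestronglyMeasurable C ?_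
    filter_upwards [hTL] with x hx using hC _ (by simpa using hx)
  have hint' : ∀ F : E → ℝ, Continuous F → Integrable (fun p => F (f p)) π := by
    intro F hF
    have := (integrable_map_measure hF.aestronglyMeasurable hT.aemeasurable).2 (hint F hF)
    rw [← hmap] at this
    exact (integrable_map_measure hF.aestronglyMeasurable hf.aemeasurable).1 this
  have htr : ∀ F : E → ℝ, Continuous F → ∫ x in K, F (T x) = ∑ i, ∫ p in A i, F (f p) ∂π := by
    intro F hF
    rw [← hsum _ (hint' F hF), ← integral_map hf.aemeasurable hF.aestronglyMeasurable, hmap,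
      integral_map hT.aemeasurable hF.aestronglyMeasurable]
  have hin : IntegrableOn (fun x => ⟪T x, x⟫_ℝ) K volume := by
    refine Integrable.of_bound (Measurable.aestronglyMeasurable (by fun_prop)) (L * R) ?_
    filter_upwards [hTL, ae_restrict_mem hK.measurableSet] with x hx hxK
    have : ‖x‖ ≤ R := by simpa using hKR hxK
    exact (abs_real_inner_le_norm _ _).trans
      (mul_le_mul hx this (norm_nonneg _) ((norm_nonneg _).trans hx))
  have ip : IntegrableOn (pot y ψ) K volume := c1.continuousOn.integrableOn_compact hK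
  refine ⟨fun x => pot y ψ x + κ (T x) - ⟪T x, x⟫_ℝ, (ip.add (hint κ h0)).sub hin, ?_, ?_⟩
  · have ip2 : IntegrableOn (fun x => pot y ψ x + κ (T x)) K volume := ip.add (hint κ h0)
    simp only
    rw [integral_sub ip2 hin, integral_add ip (hint κ h0)]
    have b1 : ∫ x in K, κ (T x) ≤ ∑ i, mass K y ψ i * (ψ i + R * δ) := by
      rw [htr κ h0]
      refine Finset.sum_le_sum fun i _ => ?_
      rw [hm, ← smul_eq_mul, ← setIntegral_const]
      refine setIntegral_mono_on (hint' κ h0).integrableOn (integrableOn_const (measure_ne_top _ _))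
        (hA i) fun p hp => ?_
      have a1 := h3 (y i) (ψ i) fun z _ => by linarith [le_pot y ψ z i]
      have a2 := mul_le_mul_of_nonneg_left (hδ i p hp) hR
      linarith [h1 (f p) (y i)]
    have b3 := competitor hK hKR hy ψ hT hTL he hopt π hf hmap hA hm hm0 hδ hsum
    have b4 := FF_eq hK hy ψ
    have b5 := sum_mass hK hy ψ
    simp only [FF, mul_add, mul_sub, Finset.sum_add_distrib, Finset.sum_sub_distrib,
      ← Finset.sum_mul, b5, mul_comm (ψ _)] at b1 b3 b4
    rw [← Finset.mul_sum, b5] at b3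
    linarith
  · filter_upwards [hTL, ae_restrict_mem hK.measurableSet] with x hx hxK
    refine ⟨by linarith [h2 x hxK (T x)], ?_, fun z hz => ?_⟩
    · have := h3 (T x) (4 * L * R + ⟪T x, x⟫_ℝ - pot y ψ x) fun z hz => by
        have a1 : ‖x‖ ≤ R := by simpa using hKR hxK
        have a2 : ‖z‖ ≤ R := by simpa using hKR hz
        have a3 := (norm_sub_le z x).trans (add_le_add a2 a1)
        have hL : 0 ≤ L := (norm_nonneg _).trans hx
        have a4 := (abs_le.1 (pot_lip hyL ψ z x)).1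
        have a5 := real_inner_le_norm (T x) (z - x)
        have a6 := mul_le_mul_of_nonneg_right hx (norm_nonneg (z - x))
        have a7 := mul_le_mul_of_nonneg_left a3 hL
        rw [inner_sub_right] at a5
        linarith
      linarith
    · rw [inner_sub_right]
      linarith [h2 z hz (T x)]

end Vale.Agent.P074
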