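import Mathlib

open MeasureTheory Set
open scoped ENNReal NNReal

namespace Vale.Agent.P074

lemma bm1_compact {A B C : Set ℝ} (hA : IsCompact A) (hB : IsCompact B) (hAn : A.Nonempty)
    (hBn : B.Nonempty) (h : ∀ a ∈ A, ∀ b ∈ B, (1 / 2 : ℝ) • (a + b) ∈ C) :
    volume A + volume B ≤ 2 * volume C := by
  obtain ⟨a0, ha0, hamax⟩ := hA.exists_isMaxOn hAn continuousOn_id
  obtain ⟨b0, hb0, hbmin⟩ := hB.exists_isMinOn hBn continuousOn_id
  set c : ℝ := (1 / 2 : ℝ) • (a0 + b0) with hc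
  have key : ∀ (S : Set ℝ) (k : ℝ), volume ((fun x => (1 / 2 : ℝ) * (x + k)) ⁻¹' S)
      = 2 * volume S := by
    intro S k
    have : (fun x => (1 / 2 : ℝ) * (x + k)) ⁻¹' S
        = (fun x => x + k) ⁻¹' ((fun x => (1 / 2 : ℝ) * x) ⁻¹' S) := rfl
    rw [this, measure_preimage_add_right, Real.volume_preimage_mul_left (by norm_num)]
    norm_num
  have h1 : volume A ≤ 2 * volume (C ∩ Iic c) := by
    rw [← key _ b0]
    refine measure_mono fun a ha => ⟨h a ha b0 hb0, ?_⟩
    have := hamax ha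
    simp only [id, mem_setOf_eq] at this
    simp only [hc, mem_Iic, smul_eq_mul]; linarith
  have h2 : volume B ≤ 2 * volume (C ∩ Ici c) := by
    rw [← key _ a0]
    refine measure_mono fun b hb => ⟨?_, ?_⟩
    · have := h a0 ha0 b hb
      rwa [add_comm] at this
    have := hbmin hb
    simp only [id, mem_setOf_eq] at this
    simp only [hc, mem_Ici, smul_eq_mul]; linarith
  have h3 : volume (C ∩ Ici c) = volume (C \ Iic c) := by
    have : C \ Iic c = C ∩ Ioi c := by ext x; simp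
    rw [this]
    exact measure_congr ((ae_eq_refl C).inter Ioi_ae_eq_Ici.symm)
  calc _ ≤ 2 * volume (C ∩ Iic c) + 2 * volume (C ∩ Ici c) := add_le_add h1 h2
    _ = 2 * volume C := by
      rw [← mul_add, h3, measure_inter_add_diff _ measurableSet_Iic]

lemma bm1 {A B C : Set ℝ} (hA : MeasurableSet A) (hB : MeasurableSet B) (hAn : A.Nonempty)
    (hBn : B.Nonempty) (h : ∀ a ∈ A, ∀ b ∈ B, (1 / 2 : ℝ) • (a + b) ∈ C) :
    volume A + volume B ≤ 2 * volume C := by
  obtain ⟨a0, ha0⟩ := hAn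
  obtain ⟨b0, hb0⟩ := hBn
  rw [hA.measure_eq_iSup_isCompact volume, hB.measure_eq_iSup_isCompact volume]
  have e : ∀ S : Set ℝ, ⨆ K, ⨆ (_ : K ⊆ S), ⨆ (_ : IsCompact K), volume K
      = ⨆ K, ⨆ (_ : K ⊆ S ∧ IsCompact K), volume K := fun S => by simp only [iSup_and]
  rw [e, e]
  refine ENNReal.biSup_add_biSup_le' ⟨∅, by simp⟩ ⟨∅, by simp⟩ ?_
  rintro K ⟨hK, hKc⟩ L ⟨hL, hLc⟩
  refine le_trans (add_le_add (measure_mono (subset_insert a0 K))
    (measure_mono (subset_insert b0 L))) ?_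
  refine bm1_compact (hKc.insert a0) (hLc.insert b0) (insert_nonempty _ _) (insert_nonempty _ _) ?_
  intro a ha b hb
  exact h a (insert_subset ha0 hK ha) b (insert_subset hb0 hL hb)

lemma layer {f : ℝ → ℝ≥0∞} (hf : Measurable f) (h1 : ∀ x, f x ≤ 1) :
    ∫⁻ x, f x = ∫⁻ t in Ioo (0 : ℝ) 1, volume {x | ENNReal.ofReal t < f x} := by
  have hne : ∀ x, f x ≠ ⊤ := fun x => ne_top_of_le_ne_top ENNReal.one_ne_top (h1 x)
  have e1 : ∫⁻ x, f x = ∫⁻ x, ENNReal.ofReal (f x).toReal :=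
    lintegral_congr fun x => (ENNReal.ofReal_toReal (hne x)).symm
  rw [e1, lintegral_eq_lintegral_meas_lt volume (Filter.Eventually.of_forall fun x =>
    ENNReal.toReal_nonneg) hf.ennreal_toReal.aemeasurable]
  have e2 : Ioi (0 : ℝ) = Ioo 0 1 ∪ Ici 1 := by
    rw [Ioo_union_Ici_eq_Ioi]; norm_num
  rw [e2, lintegral_union measurableSet_Ici (by
    rw [Set.disjoint_left]; intro x hx hx'; exact absurd hx.2 (not_lt.2 hx'))]
  have e3 : ∫⁻ t in Ici (1 : ℝ), volume {a | t < (f a).toReal} = 0 := by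
    rw [setLIntegral_congr_fun measurableSet_Ici (g := fun _ => 0)]
    · simp
    intro t ht
    have : {a | t < (f a).toReal} = ∅ := by
      ext a
      simp only [mem_setOf_eq, mem_empty_iff_false, iff_false, not_lt]
      exact (ENNReal.toReal_le_of_le_ofReal zero_le_one (by simpa using h1 a)).trans ht
    simp [this]
  rw [e3, add_zero]
  refine setLIntegral_congr_fun measurableSet_Ioo fun t ht => ?_
  congr 1
  ext a
  simp only [mem_setOf_eq]
  rw [ENNReal.ofReal_lt_iff_lt_toReal ht.1.le (hne a)]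

lemma meas_layer {f : ℝ → ℝ≥0∞} :
    Measurable fun t : ℝ => volume {x | ENNReal.ofReal t < f x} := by
  refine Antitone.measurable fun s t hst => measure_mono fun x hx => ?_
  exact lt_of_le_of_lt (ENNReal.ofReal_le_ofReal hst) hx

lemma pl1_add {f g h : ℝ → ℝ≥0∞} (hf : Measurable f) (hg : Measurable g) (hh : Measurable h)
    (f1 : ⨆ x, f x = 1) (g1 : ⨆ x, g x = 1)
    (H : ∀ x y, f x * g y ≤ h ((1 / 2 : ℝ) • (x + y)) ^ 2) :
    (∫⁻ x, f x) + ∫⁻ x, g x ≤ 2 * ∫⁻ x, h x := by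
  have hf1 : ∀ x, f x ≤ 1 := fun x => f1 ▸ le_iSup f x
  have hg1 : ∀ x, g x ≤ 1 := fun x => g1 ▸ le_iSup g x
  have hm : Measurable fun x => min (h x) 1 := hh.min measurable_const
  refine le_trans ?_ (mul_le_mul_right (lintegral_mono fun x => min_le_left (h x) 1) 2)
  rw [layer hf hf1, layer hg hg1, layer hm fun x => min_le_right _ _,
    ← lintegral_add_left meas_layer, ← lintegral_const_mul _ meas_layer]
  refine setLIntegral_mono' measurableSet_Ioo fun t ht => ?_
  have ht1 : ENNReal.ofReal t < 1 := by simpa using ht.2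
  refine bm1 (measurableSet_lt measurable_const hf) (measurableSet_lt measurable_const hg) ?_ ?_ ?_
  · rw [← f1, lt_iSup_iff] at ht1; exact ht1
  · rw [← g1, lt_iSup_iff] at ht1; exact ht1
  intro a ha b hb
  simp only [mem_setOf_eq] at ha hb ⊢
  refine lt_min ?_ ht1
  by_contra hc
  push Not at hc
  have h2 := (H a b).trans (pow_le_pow_left' hc 2)
  have h3 : ENNReal.ofReal t * ENNReal.ofReal t < f a * g b := ENNReal.mul_lt_mul ha hb
  rw [sq] at h2
  exact absurd h2 (not_le.2 h3)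

lemma amgm {u v w : ℝ≥0∞} (h : u + v ≤ 2 * w) : u * v ≤ w ^ 2 := by
  rcases eq_or_ne w ⊤ with rfl | hw
  · simp
  have h2 : 2 * w ≠ ⊤ := ENNReal.mul_ne_top (by simp) hw
  have hu : u ≠ ⊤ := ne_top_of_le_ne_top h2 (le_self_add.trans h)
  have hv : v ≠ ⊤ := ne_top_of_le_ne_top h2 (le_add_self.trans h)
  lift u to ℝ≥0 using hu
  lift v to ℝ≥0 using hv
  lift w to ℝ≥0 using hw
  norm_cast at h ⊢
  have h' : (u : ℝ) + v ≤ 2 * w := by exact_mod_cast h
  have : (u : ℝ) * v ≤ (w : ℝ) ^ 2 := by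
    nlinarith [sq_nonneg ((u : ℝ) - v), u.2, v.2, w.2]
  exact_mod_cast this

lemma pl1_bdd {f g h : ℝ → ℝ≥0∞} (hf : Measurable f) (hg : Measurable g) (hh : Measurable h)
    (f1 : ⨆ x, f x ≠ ⊤) (g1 : ⨆ x, g x ≠ ⊤)
    (H : ∀ x y, f x * g y ≤ h ((1 / 2 : ℝ) • (x + y)) ^ 2) :
    (∫⁻ x, f x) * ∫⁻ x, g x ≤ (∫⁻ x, h x) ^ 2 := by
  rcases eq_or_ne (⨆ x, f x) 0 with f0 | f0
  · have : f = fun _ => 0 := by
      funext x; exact le_antisymm (f0 ▸ le_iSup f x) (zero_le)
    simp [this]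
  rcases eq_or_ne (⨆ x, g x) 0 with g0 | g0
  · have : g = fun _ => 0 := by
      funext x; exact le_antisymm (g0 ▸ le_iSup g x) (zero_le)
    simp [this]
  obtain ⟨a, ha⟩ : ∃ a : ℝ≥0∞, a ^ 2 = ⨆ x, f x :=
    ⟨(⨆ x, f x) ^ (1 / 2 : ℝ), by rw [← ENNReal.rpow_natCast, ← ENNReal.rpow_mul]; simp⟩
  obtain ⟨b, hb⟩ : ∃ a : ℝ≥0∞, a ^ 2 = ⨆ x, g x :=
    ⟨(⨆ x, g x) ^ (1 / 2 : ℝ), by rw [← ENNReal.rpow_natCast, ← ENNReal.rpow_mul]; simp⟩
  have a0 : a ≠ 0 := by rintro rfl; simp at ha; exact f0 (by simpa using ha.symm)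
  have b0 : b ≠ 0 := by rintro rfl; simp at hb; exact g0 (by simpa using hb.symm)
  have at' : a ≠ ⊤ := by rintro rfl; simp at ha; exact f1 (by simpa using ha.symm)
  have bt : b ≠ ⊤ := by rintro rfl; simp at hb; exact g1 (by simpa using hb.symm)
  have hab : (a⁻¹ ^ 2) * (b⁻¹ ^ 2) = (a⁻¹ * b⁻¹) ^ 2 := by rw [mul_pow]
  have k := pl1_add (f := fun x => a⁻¹ ^ 2 * f x) (g := fun x => b⁻¹ ^ 2 * g x)
    (h := fun x => (a⁻¹ * b⁻¹) * h x) (hf.const_mul _) (hg.const_mul _) (hh.const_mul _)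
    (by rw [← ENNReal.mul_iSup, ← ha, ← mul_pow, ENNReal.inv_mul_cancel a0 at', one_pow])
    (by rw [← ENNReal.mul_iSup, ← hb, ← mul_pow, ENNReal.inv_mul_cancel b0 bt, one_pow])
    (fun x y => by
      rw [mul_mul_mul_comm, hab, mul_pow (a⁻¹ * b⁻¹)]
      exact mul_le_mul_right (H x y) _)
  have k2 := amgm k
  rw [lintegral_const_mul _ hf, lintegral_const_mul _ hg, lintegral_const_mul _ hh,
    mul_mul_mul_comm, hab, mul_pow (a⁻¹ * b⁻¹)] at k2
  refine (ENNReal.mul_le_mul_iff_right ?_ ?_).1 k2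
  · simp [at', bt]
  · exact ENNReal.pow_ne_top (ENNReal.mul_ne_top (by simpa) (by simpa))

/-- The Prekopa-Leindler property of a measured vector space. -/
def PL (V : Type) [AddCommGroup V] [Module ℝ V] [MeasureSpace V] : Prop :=
  ∀ f g h : V → ℝ≥0∞, Measurable f → Measurable g → Measurable h →
    (∀ x y, f x * g y ≤ h ((1 / 2 : ℝ) • (x + y)) ^ 2) →
    (∫⁻ x, f x) * ∫⁻ x, g x ≤ (∫⁻ x, h x) ^ 2

lemma trunc {f : ℝ → ℝ≥0∞} (hf : Measurable f) :
    ∫⁻ x, f x = ⨆ n : ℕ, ∫⁻ x, min (f x) n := by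
  rw [← lintegral_iSup (fun n => hf.min measurable_const)
    (fun n m hnm x => min_le_min_left _ (by exact_mod_cast hnm))]
  refine lintegral_congr fun x => ?_
  rw [← inf_iSup_eq (f x) (fun n : ℕ => (n : ℝ≥0∞)), ENNReal.iSup_natCast]
  simp

lemma pl_real : PL ℝ := by
  intro f g h hf hg hh H
  rw [trunc hf, trunc hg, ENNReal.iSup_mul]
  refine iSup_le fun n => ?_
  rw [ENNReal.mul_iSup]
  refine iSup_le fun m => ?_
  refine pl1_bdd (hf.min measurable_const) (hg.min measurable_const) hh ?_ ?_ ?_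
  · exact ne_top_of_le_ne_top (ENNReal.natCast_ne_top n) (iSup_le fun x => min_le_right _ _)
  · exact ne_top_of_le_ne_top (ENNReal.natCast_ne_top m) (iSup_le fun x => min_le_right _ _)
  · intro x y
    exact le_trans (mul_le_mul' (min_le_left _ _) (min_le_left _ _)) (H x y)

lemma pl_prod {V W : Type} [AddCommGroup V] [Module ℝ V] [MeasureSpace V]
    [AddCommGroup W] [Module ℝ W] [MeasureSpace W] [SFinite (volume : Measure W)]
    (hV : PL V) (hW : PL W) : PL (V × W) := by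
  intro f g h hf hg hh H
  rw [Measure.volume_eq_prod, lintegral_prod _ hf.aemeasurable, lintegral_prod _ hg.aemeasurable,
    lintegral_prod _ hh.aemeasurable]
  refine hV _ _ _ hf.lintegral_prod_right' hg.lintegral_prod_right' hh.lintegral_prod_right' ?_
  intro x y
  refine hW _ _ _ (hf.comp measurable_prodMk_left) (hg.comp measurable_prodMk_left)
    (hh.comp measurable_prodMk_left) fun z w => ?_
  exact H (x, z) (y, w)

lemma pl_equiv {V W : Type} [AddCommGroup V] [Module ℝ V] [MeasureSpace V]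
    [AddCommGroup W] [Module ℝ W] [MeasureSpace W] (e : W → V)
    (he : MeasurePreserving e volume volume)
    (hl : ∀ x y, e ((1 / 2 : ℝ) • (x + y)) = (1 / 2 : ℝ) • (e x + e y))
    (hW : PL W) : PL V := by
  intro f g h hf hg hh H
  rw [← he.lintegral_comp hf, ← he.lintegral_comp hg, ← he.lintegral_comp hh]
  refine hW _ _ _ (hf.comp he.measurable) (hg.comp he.measurable) (hh.comp he.measurable) ?_
  intro x y
  rw [hl]; exact H _ _

lemma pl_pi (n : ℕ) : PL (Fin n → ℝ) := by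
  induction n with
  | zero =>
    intro f g h hf hg hh H
    have hv : (volume : Measure (Fin 0 → ℝ)) = Measure.dirac 0 := by
      rw [volume_pi, Measure.pi_of_empty _ 0]
    rw [hv, lintegral_dirac, lintegral_dirac, lintegral_dirac]
    simpa using H 0 0
  | succ n ih =>
    refine pl_equiv (MeasurableEquiv.piFinSuccAbove (fun _ => ℝ) 0).symm
      (volume_preserving_piFinSuccAbove (fun _ => ℝ) 0).symm ?_ (pl_prod pl_real ih)
    intro x y
    funext i
    refine Fin.cases ?_ (fun j => ?_) i <;>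
      simp [MeasurableEquiv.piFinSuccAbove, Fin.insertNthEquiv, mul_add]

variable {E : Type} [NormedAddCommGroup E] [InnerProductSpace ℝ E] [FiniteDimensional ℝ E]
  [MeasurableSpace E] [BorelSpace E]

lemma pl_E : PL E := by
  have h1 : PL (EuclideanSpace ℝ (Fin (Module.finrank ℝ E))) :=
    pl_equiv (WithLp.toLp 2) (PiLp.volume_preserving_toLp _) (fun x y => rfl) (pl_pi _)
  refine pl_equiv (stdOrthonormalBasis ℝ E).repr.symm
    (stdOrthonormalBasis ℝ E).measurePreserving_repr_symm (fun x y => by simp) h1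

/-- Multiplicative Brunn-Minkowski inequality. -/
theorem bm {A B M : Set E} (hA : MeasurableSet A) (hB : MeasurableSet B) (hM : MeasurableSet M)
    (h : ∀ a ∈ A, ∀ b ∈ B, (1 / 2 : ℝ) • (a + b) ∈ M) :
    volume A * volume B ≤ volume M ^ 2 := by
  have := pl_E (A.indicator 1) (B.indicator 1) (M.indicator 1)
    (measurable_one.indicator hA) (measurable_one.indicator hB) (measurable_one.indicator hM)
    (fun x y => by
      by_cases hx : x ∈ A
      · by_cases hy : y ∈ B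
        · rw [indicator_of_mem hx, indicator_of_mem hy, indicator_of_mem (h x hx y hy)]; simp
        · simp [hy]
      · simp [hx])
  simpa [lintegral_indicator_one, hA, hB, hM] using this

end Vale.Agent.P074
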