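import Vale.Agent.P074.Slab

open MeasureTheory Set
open scoped ENNReal NNReal InnerProductSpace

namespace Vale.Agent.P074

variable {E : Type} [NormedAddCommGroup E] [InnerProductSpace ℝ E] [FiniteDimensional ℝ E]
  [MeasurableSpace E] [BorelSpace E]

lemma hyper_null {v : E} (hv : v ≠ 0) (c : ℝ) : volume {x : E | ⟪v, x⟫_ℝ = c} = 0 := by
  have hn : ‖v‖ ^ 2 ≠ 0 := by simpa using hv
  have h1 : {x : E | ⟪v, x⟫_ℝ = c} = (fun x => x - (c / ‖v‖ ^ 2) • v) ⁻¹'
      (LinearMap.ker (innerSL ℝ v).toLinearMap : Set E) := by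
    ext x
    simp only [mem_setOf_eq, mem_preimage, SetLike.mem_coe, LinearMap.mem_ker,
      ContinuousLinearMap.coe_coe, innerSL_apply_apply, inner_sub_right, inner_smul_right,
      real_inner_self_eq_norm_sq]
    rw [div_mul_cancel₀ _ hn, sub_eq_zero]
  rw [h1]
  simp only [sub_eq_add_neg]
  rw [measure_preimage_add_right]
  refine Measure.addHaar_submodule _ _ fun h => ?_
  have : v ∈ LinearMap.ker (innerSL ℝ v).toLinearMap := by rw [h]; trivial
  simp only [LinearMap.mem_ker, ContinuousLinearMap.coe_coe, innerSL_apply_apply,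
    real_inner_self_eq_norm_sq] at this
  exact hn this

lemma vol_lt {A : Set E} {R : ℝ} (hA : A ⊆ Metric.closedBall 0 R) : volume A < ⊤ :=
  (measure_mono hA).trans_lt (isCompact_closedBall _ _).measure_lt_top

lemma intOn {F : Type} [NormedAddCommGroup F] {A : Set E} {R : ℝ}
    (hA : A ⊆ Metric.closedBall 0 R) {g : E → F} (hg : Continuous g) :
    IntegrableOn g A volume :=
  (hg.continuousOn.integrableOn_compact (isCompact_closedBall _ _)).mono_set hA

lemma cell_ineq {A B M : Set E} (hA : MeasurableSet A) (hB : MeasurableSet B)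
    (hM : MeasurableSet M) {R p q : ℝ} (hR : 0 ≤ R) (hp : 0 < p) (hq : 0 < q)
    (hAR : A ⊆ Metric.closedBall 0 R) (hBR : B ⊆ Metric.closedBall 0 R)
    (hMR : M ⊆ Metric.closedBall 0 R)
    (ha : volume.real A = p ^ 2) (hb : volume.real B = q ^ 2)
    (h : ∀ a ∈ A, ∀ b ∈ B, (1 / 2 : ℝ) • (a + b) ∈ M) {e : E} (he : ‖e‖ = 1) :
    p * q * ⟪e, (p ^ 2)⁻¹ • (∫ x in A, x) - (q ^ 2)⁻¹ • ∫ x in B, x⟫_ℝ ^ 2 / 8 ≤
      (∫ x in M, (R ^ 2 - ⟪e, x⟫_ℝ ^ 2)) - ((∫ x in A, (R ^ 2 - ⟪e, x⟫_ℝ ^ 2))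
        + ∫ x in B, (R ^ 2 - ⟪e, x⟫_ℝ ^ 2)) / 2 + 5 / 2 * R ^ 2 * (p - q) ^ 2 := by
  have he0 : e ≠ 0 := by rintro rfl; simp at he
  set l : E → ℝ := fun x => ⟪e, x⟫_ℝ with hl
  have hlc : Continuous l := by fun_prop
  have hlm : Measurable l := hlc.measurable
  have app : ∀ (S : Set E) (I : Set ℝ), MeasurableSet I →
      ((volume.restrict S).map l) I = volume (l ⁻¹' I ∩ S) := by
    intro S I hI
    rw [Measure.map_apply hlm hI, Measure.restrict_apply (hlm hI)]
  have fin : ∀ S : Set E, S ⊆ Metric.closedBall 0 R →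
      IsFiniteMeasure ((volume.restrict S).map l) := by
    intro S hS
    have : IsFiniteMeasure (volume.restrict S) := ⟨by simpa using vol_lt hS⟩
    infer_instance
  have noat : ∀ S : Set E, NullSingletonClass ((volume.restrict S).map l) := by
    intro S
    refine ⟨fun c => ?_⟩
    rw [app _ _ (measurableSet_singleton c)]
    exact measure_mono_null inter_subset_left (hyper_null he0 c)
  have supp : ∀ S : Set E, S ⊆ Metric.closedBall 0 R →
      ((volume.restrict S).map l) (Icc (-R) R)ᶜ = 0 := by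
    intro S hS
    rw [app _ _ measurableSet_Icc.compl]
    have : l ⁻¹' (Icc (-R) R)ᶜ ∩ S = ∅ := by
      ext x
      simp only [mem_inter_iff, mem_preimage, mem_compl_iff, mem_empty_iff_false, iff_false,
        not_and]
      intro h1 h2
      apply h1
      have h3 : ‖x‖ ≤ R := by simpa using hS h2
      have h4 := abs_real_inner_le_norm e x
      rw [he, one_mul] at h4
      exact abs_le.1 (h4.trans h3)
    rw [this, measure_empty]
  have tot : ∀ S : Set E, ((volume.restrict S).map l).real univ = volume.real S := by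
    intro S
    simp only [Measure.real]
    rw [app _ _ MeasurableSet.univ]; simp
  have := fin A hAR
  have := fin B hBR
  have := fin M hMR
  have := noat A
  have := noat B
  have key := one_dim ((volume.restrict A).map l) ((volume.restrict B).map l)
    ((volume.restrict M).map l) hR hp hq (supp A hAR) (supp B hBR) (supp M hMR)
    (by rw [tot, ha]) (by rw [tot, hb]) (by
      intro s t s' t'
      simp only [Measure.real]
      rw [app _ _ measurableSet_Ioc, app _ _ measurableSet_Ioc, app _ _ measurableSet_Ioc,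
        ← ENNReal.toReal_mul, ← ENNReal.toReal_pow]
      refine ENNReal.toReal_mono (ENNReal.pow_ne_top
        (vol_lt (inter_subset_right.trans hMR)).ne) ?_
      refine bm ((hlm measurableSet_Ioc).inter hA) ((hlm measurableSet_Ioc).inter hB)
        ((hlm measurableSet_Ioc).inter hM) ?_
      rintro a ⟨a1, a2⟩ b ⟨b1, b2⟩
      refine ⟨?_, h a a2 b b2⟩
      simp only [mem_preimage, mem_Ioc, hl, inner_smul_right, inner_add_right] at a1 b1 ⊢
      constructor <;> linarith [a1.1, a1.2, b1.1, b1.2])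
  have i1 : ∀ S : Set E, ∫ x, (R ^ 2 - x ^ 2) ∂((volume.restrict S).map l)
      = ∫ x in S, (R ^ 2 - ⟪e, x⟫_ℝ ^ 2) := fun S =>
    integral_map hlm.aemeasurable (by fun_prop)
  have i2 : ∀ S : Set E, S ⊆ Metric.closedBall 0 R → ∫ x, x ∂((volume.restrict S).map l)
      = ⟪e, ∫ x in S, x⟫_ℝ := fun S hS => by
    rw [integral_map hlm.aemeasurable (by fun_prop)]
    exact integral_inner (𝕜 := ℝ) (intOn hS continuous_id') e
  rw [i1, i1, i1, i2 A hAR, i2 B hBR] at key
  rw [inner_sub_right, inner_smul_right, inner_smul_right]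
  simp only [div_eq_inv_mul] at key ⊢
  exact key

variable {ι : Type} [Fintype ι] [Nonempty ι]

/-- The convex potential. -/
noncomputable def pot (y : ι → E) (ψ : ι → ℝ) (x : E) : ℝ :=
  Finset.univ.sup' Finset.univ_nonempty fun i => ⟪y i, x⟫_ℝ - ψ i

/-- Laguerre cells. -/
def cell (K : Set E) (y : ι → E) (ψ : ι → ℝ) (i : ι) : Set E :=
  {x ∈ K | ∀ j, ⟪y j, x⟫_ℝ - ψ j ≤ ⟪y i, x⟫_ℝ - ψ i}

omit [FiniteDimensional ℝ E] [MeasurableSpace E] [BorelSpace E] in
lemma le_pot (y : ι → E) (ψ : ι → ℝ) (x : E) (i : ι) : ⟪y i, x⟫_ℝ - ψ i ≤ pot y ψ x :=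
  Finset.le_sup' (fun i => ⟪y i, x⟫_ℝ - ψ i) (Finset.mem_univ i)

omit [FiniteDimensional ℝ E] [MeasurableSpace E] [BorelSpace E] in
lemma pot_le {y : ι → E} {ψ : ι → ℝ} {x : E} {c : ℝ} (h : ∀ i, ⟪y i, x⟫_ℝ - ψ i ≤ c) :
    pot y ψ x ≤ c := Finset.sup'_le _ _ fun i _ => h i

omit [FiniteDimensional ℝ E] [MeasurableSpace E] [BorelSpace E] in
lemma pot_eq {K : Set E} {y : ι → E} {ψ : ι → ℝ} {x : E} {i : ι} (h : x ∈ cell K y ψ i) :
    pot y ψ x = ⟪y i, x⟫_ℝ - ψ i := le_antisymm (pot_le h.2) (le_pot _ _ _ _)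

omit [FiniteDimensional ℝ E] [MeasurableSpace E] [BorelSpace E] in
lemma exists_cell {K : Set E} (y : ι → E) (ψ : ι → ℝ) {x : E} (h : x ∈ K) :
    ∃ i, x ∈ cell K y ψ i := by
  obtain ⟨i, hi⟩ := Finite.exists_max fun i => ⟪y i, x⟫_ℝ - ψ i
  exact ⟨i, h, hi⟩

omit [FiniteDimensional ℝ E] [MeasurableSpace E] [BorelSpace E] in
lemma pot_cont (y : ι → E) : Continuous fun z : (ι → ℝ) × E => pot y z.1 z.2 := by
  unfold pot
  exact Continuous.finset_sup'_apply _ fun i _ => by fun_prop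

omit [FiniteDimensional ℝ E] [MeasurableSpace E] [BorelSpace E] in
lemma pot_cont' (y : ι → E) (ψ : ι → ℝ) : Continuous (pot y ψ) :=
  (pot_cont y).comp (Continuous.prodMk_right ψ)

omit [Nonempty ι] in
lemma cell_meas {K : Set E} (hK : MeasurableSet K) (y : ι → E) (ψ : ι → ℝ) (i : ι) :
    MeasurableSet (cell K y ψ i) := by
  have : cell K y ψ i = K ∩ ⋂ j, {x | ⟪y j, x⟫_ℝ - ψ j ≤ ⟪y i, x⟫_ℝ - ψ i} := by
    ext x; simp [cell]
  rw [this]
  exact hK.inter (MeasurableSet.iInter fun j => measurableSet_le (by fun_prop) (by fun_prop))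

omit [Fintype ι] [Nonempty ι] [FiniteDimensional ℝ E] [MeasurableSpace E] [BorelSpace E] in
lemma cell_sub (K : Set E) (y : ι → E) (ψ : ι → ℝ) (i : ι) : cell K y ψ i ⊆ K := fun _ h => h.1

lemma sum_cells {F : Type} [NormedAddCommGroup F] [NormedSpace ℝ F] {K : Set E}
    (hK : MeasurableSet K) {y : ι → E} (hy : Function.Injective y) (ψ : ι → ℝ) {g : E → F}
    (hg : IntegrableOn g K volume) : ∫ x in K, g x = ∑ i, ∫ x in cell K y ψ i, g x := by
  have hU : K = ⋃ i, cell K y ψ i := by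
    refine Subset.antisymm (fun x hx => mem_iUnion.2 (exists_cell y ψ hx))
      (iUnion_subset (cell_sub K y ψ))
  have := integral_iUnion_ae (μ := volume) (s := cell K y ψ) (f := g)
    (fun i => (cell_meas hK y ψ i).nullMeasurableSet) (fun i j hij => ?_) (hU ▸ hg)
  · rw [← hU, tsum_fintype] at this; exact this
  refine measure_mono_null ?_ (hyper_null (sub_ne_zero.2 (hy.ne hij)) (ψ i - ψ j))
  rintro x ⟨h1, h2⟩
  have := h1.2 j; have := h2.2 i
  simp only [mem_setOf_eq, inner_sub_left]; linarith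

/-- Mass of a cell. -/
noncomputable def mass (K : Set E) (y : ι → E) (ψ : ι → ℝ) (i : ι) : ℝ :=
  volume.real (cell K y ψ i)

/-- First moment of a cell. -/
noncomputable def mom (K : Set E) (y : ι → E) (ψ : ι → ℝ) (i : ι) : E :=
  ∫ x in cell K y ψ i, x

lemma bary {K : Set E} (hK : MeasurableSet K) (hKc : Convex ℝ K) {R : ℝ} (hR : 0 ≤ R)
    (hKR : K ⊆ Metric.closedBall 0 R) {y : ι → E} (hy : Function.Injective y) (ψ ψ' : ι → ℝ)
    {p q : ι → ℝ} (hp : ∀ i, 0 < p i) (hq : ∀ i, 0 < q i) (ha : ∀ i, mass K y ψ i = p i ^ 2)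
    (hb : ∀ i, mass K y ψ' i = q i ^ 2) :
    ∑ i, p i * q i * ‖(p i ^ 2)⁻¹ • mom K y ψ i - (q i ^ 2)⁻¹ • mom K y ψ' i‖ ^ 2
      ≤ 20 * Module.finrank ℝ E * R ^ 2 * ∑ i, (p i - q i) ^ 2 := by
  have h1 : ∀ e : E, ‖e‖ = 1 →
      ∑ i, p i * q i * ⟪e, (p i ^ 2)⁻¹ • mom K y ψ i - (q i ^ 2)⁻¹ • mom K y ψ' i⟫_ℝ ^ 2
      ≤ 20 * R ^ 2 * ∑ i, (p i - q i) ^ 2 := by
    intro e he
    have hg : IntegrableOn (fun x => R ^ 2 - ⟪e, x⟫_ℝ ^ 2) K volume := intOn hKR (by fun_prop)
    have k := Finset.sum_le_sum fun i (_ : i ∈ Finset.univ) =>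
      cell_ineq (cell_meas hK y ψ i) (cell_meas hK y ψ' i)
        (cell_meas hK y (fun j => (ψ j + ψ' j) / 2) i) hR (hp i) (hq i)
        ((cell_sub _ _ _ _).trans hKR) ((cell_sub _ _ _ _).trans hKR)
        ((cell_sub _ _ _ _).trans hKR) (ha i) (hb i) (by
          intro a ha b hb
          refine ⟨?_, fun j => ?_⟩
          · rw [smul_add]
            exact hKc ha.1 hb.1 (by norm_num) (by norm_num) (by norm_num)
          · have := ha.2 j; have := hb.2 j
            simp only [inner_smul_right, inner_add_right]; linarith) he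
    simp only [Finset.sum_add_distrib, Finset.sum_sub_distrib, ← Finset.sum_div,
      ← sum_cells hK hy _ hg] at k
    rw [← Finset.mul_sum] at k
    unfold mom
    linarith
  set b := stdOrthonormalBasis ℝ E
  have h2 : ∀ z : E, ‖z‖ ^ 2 = ∑ k, ⟪b k, z⟫_ℝ ^ 2 := fun z => by
    rw [← b.sum_sq_norm_inner_right z]; simp
  simp only [h2, Finset.mul_sum]
  rw [Finset.sum_comm]
  refine (Finset.sum_le_sum fun k _ => h1 (b k) (b.orthonormal.1 k)).trans (le_of_eq ?_)
  simp only [Finset.sum_const, Finset.card_univ, Fintype.card_fin, nsmul_eq_mul, ← Finset.mul_sum]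
  ring

end Vale.Agent.P074
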