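import Mathlib

open MeasureTheory

namespace Vale.Agent.P074

variable {E : Type} [NormedAddCommGroup E] [InnerProductSpace ℝ E] [FiniteDimensional ℝ E]
  [MeasurableSpace E] [BorelSpace E]

/-- Compact convex set with nonempty interior. -/
def IsConvexBody (K : Set E) : Prop := IsCompact K ∧ Convex ℝ K ∧ (interior K).Nonempty

/-- The uniform probability measure `ρ` on `K`. -/
noncomputable def unif (K : Set E) : Measure E := (volume K)⁻¹ • volume.restrict K

/-- `μ` is a Borel probability measure supported in `Y`. -/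
def InP (Y : Set E) (μ : Measure E) : Prop := IsProbabilityMeasure μ ∧ μ Yᶜ = 0

/-- `π` is a coupling of `μ` and `ν`. -/
def IsCoupling (π : Measure (E × E)) (μ ν : Measure E) : Prop :=
  IsProbabilityMeasure π ∧ π.map Prod.fst = μ ∧ π.map Prod.snd = ν

/-- The quadratic Wasserstein distance. -/
noncomputable def W2 (μ ν : Measure E) : ℝ :=
  sInf {c | ∃ π, IsCoupling π μ ν ∧ c = √(∫ p, ‖p.1 - p.2‖ ^ 2 ∂π)}

/-- `T` is a Borel map pushing the uniform measure of `K` to `μ`. -/
def IsTransport (K : Set E) (μ : Measure E) (T : E → E) : Prop :=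
  Measurable T ∧ (unif K).map T = μ

/-- `T` is a quadratic optimal transport map from the uniform measure of `K` to `μ`. -/
def IsOTMap (K : Set E) (μ : Measure E) (T : E → E) : Prop :=
  IsTransport K μ T ∧ ∀ S, IsTransport K μ S →
    ∫ x, ‖x - T x‖ ^ 2 ∂unif K ≤ ∫ x, ‖x - S x‖ ^ 2 ∂unif K

variable (E) in
/-- The exponent `α` is admissible. -/
def Admissible (α : ℝ) : Prop :=
  α ∈ Set.Ioc (0 : ℝ) 1 ∧ ∀ K Y : Set E, IsConvexBody K → IsCompact Y → Y.Nonempty →
    ∃ C : ℝ, ∀ (μ ν : Measure E) (T S : E → E), InP Y μ → InP Y ν →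
      IsOTMap K μ T → IsOTMap K ν S → √(∫ x, ‖T x - S x‖ ^ 2 ∂unif K) ≤ C * W2 μ ν ^ α

end Vale.Agent.P074
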