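import Vale.Agent.P074.Cells

open MeasureTheory Set
open scoped ENNReal NNReal InnerProductSpace

namespace Vale.Agent.P074

variable {E : Type} [NormedAddCommGroup E] [InnerProductSpace ℝ E] [FiniteDimensional ℝ E]
  [MeasurableSpace E] [BorelSpace E] {ι : Type} [Fintype ι] [Nonempty ι]

/-- Kantorovich functional. -/
noncomputable def FF (K : Set E) (y : ι → E) (ψ : ι → ℝ) : ℝ := ∫ x in K, pot y ψ x

omit [Fintype ι] [Nonempty ι] in
lemma int_aff {K : Set E} (hK : IsCompact K) (y : ι → E) (ψ : ι → ℝ) (i : ι) (v : E) (c : ℝ) :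
    ∫ x in cell K y ψ i, (⟪v, x⟫_ℝ - c) = ⟪v, mom K y ψ i⟫_ℝ - c * mass K y ψ i := by
  have h1 : IntegrableOn (fun x : E => x) (cell K y ψ i) volume :=
    (continuous_id'.continuousOn.integrableOn_compact hK).mono_set (cell_sub _ _ _ _)
  have h2 : volume (cell K y ψ i) ≠ ⊤ :=
    ((measure_mono (cell_sub _ _ _ _)).trans_lt hK.measure_lt_top).ne
  have h3 : IntegrableOn (fun x : E => ⟪v, x⟫_ℝ) (cell K y ψ i) volume :=
    ((Continuous.continuousOn (by fun_prop)).integrableOn_compact hK).mono_set (cell_sub _ _ _ _)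
  rw [integral_sub h3 (integrableOn_const h2), integral_inner h1]
  simp [mom, mass, mul_comm]

lemma FF_ge {K : Set E} (hK : IsCompact K) {y : ι → E} (hy : Function.Injective y) (ψ : ι → ℝ)
    (y' : ι → E) (ψ' : ι → ℝ) :
    ∑ i, (⟪y' i, mom K y ψ i⟫_ℝ - ψ' i * mass K y ψ i) ≤ FF K y' ψ' := by
  have hg := (pot_cont' y' ψ').continuousOn.integrableOn_compact (μ := volume) hK
  rw [FF, sum_cells hK.measurableSet hy ψ hg]
  refine Finset.sum_le_sum fun i _ => ?_
  rw [← int_aff hK]
  refine integral_mono ?_ (hg.mono_set (cell_sub _ _ _ _)) fun x => le_pot _ _ _ _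
  exact (Continuous.continuousOn (by fun_prop)).integrableOn_compact hK |>.mono_set
    (cell_sub _ _ _ _)

lemma FF_eq {K : Set E} (hK : IsCompact K) {y : ι → E} (hy : Function.Injective y) (ψ : ι → ℝ) :
    FF K y ψ = ∑ i, (⟪y i, mom K y ψ i⟫_ℝ - ψ i * mass K y ψ i) := by
  have hg := (pot_cont' y ψ).continuousOn.integrableOn_compact (μ := volume) hK
  rw [FF, sum_cells hK.measurableSet hy ψ hg]
  refine Finset.sum_congr rfl fun i _ => ?_
  rw [← int_aff hK]
  exact setIntegral_congr_fun (cell_meas hK.measurableSet _ _ _) fun x hx => pot_eq hx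

lemma sum_mass {K : Set E} (hK : IsCompact K) {y : ι → E} (hy : Function.Injective y)
    (ψ : ι → ℝ) : ∑ i, mass K y ψ i = volume.real K := by
  have := sum_cells hK.measurableSet hy ψ (g := fun _ => (1 : ℝ))
    (integrableOn_const hK.measure_lt_top.ne)
  simpa [mass] using this.symm

lemma FF_cont {K : Set E} (hK : IsCompact K) (y : ι → E) : Continuous (FF K y) :=
  continuous_parametric_integral_of_continuous (f := fun ψ x => pot y ψ x) (pot_cont y) hK

lemma FF_shift {K : Set E} (hK : IsCompact K) (y : ι → E) (ψ : ι → ℝ) (s : ℝ) :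
    FF K y (fun i => ψ i + s) = FF K y ψ - s * volume.real K := by
  have h : ∀ x, pot y (fun i => ψ i + s) x = pot y ψ x - s := by
    intro x
    apply le_antisymm
    · exact pot_le fun i => by linarith [le_pot y ψ x i]
    · rw [sub_le_iff_le_add]
      exact pot_le fun i => by linarith [le_pot y (fun i => ψ i + s) x i]
  simp only [FF, h]
  rw [integral_sub ((pot_cont' y ψ).continuousOn.integrableOn_compact hK)
    (integrableOn_const hK.measure_lt_top.ne)]
  simp [mul_comm]

lemma le_of_forall_small {a b D : ℝ} (h : ∀ n : ℕ, a ≤ b + D / ((n : ℝ) + 1)) : a ≤ b := by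
  have ht := (tendsto_one_div_add_atTop_nhds_zero_nat (𝕜 := ℝ)).const_mul D |>.const_add b
  simp only [mul_zero, add_zero, mul_one_div] at ht
  exact ge_of_tendsto' ht h

lemma foc {K : Set E} (hK : IsCompact K) {y : ι → E} (hy : Function.Injective y) {ψ c : ι → ℝ}
    {D : ℝ} (H : ∀ δ : ι → ℝ,
      FF K y ψ ≤ FF K y (fun i => ψ i + δ i) + ∑ i, c i * δ i + D * ∑ i, δ i ^ 2) :
    mass K y ψ = c := by
  classical
  have h1 : ∀ i, c i ≤ mass K y ψ i := by
    intro i
    set φ : ℕ → ι → ℝ := fun n j => ψ j + if j = i then -(1 / ((n : ℝ) + 1)) else 0 with hφ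
    have h2 : ∀ n : ℕ, c i - D / ((n : ℝ) + 1) ≤ mass K y (φ n) i := by
      intro n
      have k1 := H fun j => if j = i then -(1 / ((n : ℝ) + 1)) else 0
      have k2 := FF_ge hK hy (φ n) y ψ
      have k3 := FF_eq hK hy (φ n)
      have k4 : ∑ j, (⟪y j, mom K y (φ n) j⟫_ℝ - φ n j * mass K y (φ n) j)
          = ∑ j, (⟪y j, mom K y (φ n) j⟫_ℝ - ψ j * mass K y (φ n) j)
            + 1 / ((n : ℝ) + 1) * mass K y (φ n) i := by
        rw [← sub_eq_iff_eq_add', ← Finset.sum_sub_distrib,
          Finset.sum_eq_single i (fun j _ hj => by simp [hφ, hj]) (by simp)]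
        simp [hφ]; ring
      simp only [mul_ite, mul_zero, Finset.sum_ite_eq', Finset.mem_univ, if_true, ite_pow,
        ne_eq, OfNat.ofNat_ne_zero, not_false_eq_true, zero_pow] at k1
      have hn : (0 : ℝ) < 1 / ((n : ℝ) + 1) := by positivity
      set s := 1 / ((n : ℝ) + 1) with hs
      have k5 : s * (c i - D * s) ≤ s * mass K y (φ n) i := by
        change FF K y ψ ≤ FF K y (φ n) + _ + _ at k1
        nlinarith
      have := le_of_mul_le_mul_left k5 hn
      rw [hs, mul_one_div] at this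
      exact this
    have h3 : Antitone fun n => cell K y (φ n) i := by
      intro n m hnm x hx
      refine ⟨hx.1, fun j => ?_⟩
      have := hx.2 j
      have h4 : 1 / ((m : ℝ) + 1) ≤ 1 / ((n : ℝ) + 1) := Nat.one_div_le_one_div hnm
      by_cases hj : j = i
      · subst hj; exact le_rfl
      · simp only [hφ, hj, if_true, if_false] at this ⊢; linarith
    have h4 : ⋂ n, cell K y (φ n) i = cell K y ψ i := by
      ext x
      simp only [mem_iInter]
      constructor
      · intro h
        refine ⟨(h 0).1, fun j => le_of_forall_small (D := 1) fun n => ?_⟩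
        have := (h n).2 j
        have hn : (0 : ℝ) < 1 / ((n : ℝ) + 1) := by positivity
        by_cases hj : j = i
        · subst hj; linarith
        · simp only [hφ, hj, if_true, if_false] at this ⊢; linarith
      · intro h n
        refine ⟨h.1, fun j => ?_⟩
        have := h.2 j
        have hn : (0 : ℝ) < 1 / ((n : ℝ) + 1) := by positivity
        by_cases hj : j = i
        · subst hj; exact le_rfl
        · simp only [hφ, hj, if_true, if_false] at this ⊢; linarith
    have hfin : ∀ χ : ι → ℝ, volume (cell K y χ i) ≠ ⊤ := fun χ =>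
      ((measure_mono (cell_sub _ _ _ _)).trans_lt hK.measure_lt_top).ne
    have h5 := tendsto_measure_iInter_atTop (μ := volume)
      (fun n => (cell_meas hK.measurableSet y (φ n) i).nullMeasurableSet) h3 ⟨0, hfin _⟩
    rw [h4] at h5
    have h6 := (ENNReal.tendsto_toReal (hfin ψ)).comp h5
    have ht := (tendsto_one_div_add_atTop_nhds_zero_nat (𝕜 := ℝ)).const_mul D |>.const_sub (c i)
    simp only [mul_zero, sub_zero, mul_one_div] at ht
    exact le_of_tendsto_of_tendsto' ht h6 h2
  have h2 : volume.real K ≤ ∑ i, c i := by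
    refine le_of_forall_small (D := D * Fintype.card ι) fun n => ?_
    have k1 := H fun _ => 1 / ((n : ℝ) + 1)
    rw [FF_shift hK, ← Finset.sum_mul] at k1
    simp only [Finset.sum_const, Finset.card_univ, nsmul_eq_mul] at k1
    have hn : (0 : ℝ) < 1 / ((n : ℝ) + 1) := by positivity
    set s := 1 / ((n : ℝ) + 1) with hs
    have k5 : s * volume.real K ≤ s * (∑ i, c i + D * Fintype.card ι * s) := by nlinarith
    have := le_of_mul_le_mul_left k5 hn
    rw [hs, mul_one_div] at this
    exact this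
  rw [← sum_mass hK hy ψ] at h2
  funext i
  exact ((Finset.sum_eq_sum_iff_of_le fun i _ => h1 i).1
    (le_antisymm (Finset.sum_le_sum fun i _ => h1 i) h2) i (Finset.mem_univ i)).symm

/-- Dual functional. -/
noncomputable def JJ (K : Set E) (y : ι → E) (m ψ : ι → ℝ) : ℝ := FF K y ψ + ∑ i, m i * ψ i

lemma JJ_cont {K : Set E} (hK : IsCompact K) (y : ι → E) (m : ι → ℝ) : Continuous (JJ K y m) :=
  (FF_cont hK y).add (by fun_prop)

lemma mass_of_min {K : Set E} (hK : IsCompact K) {y : ι → E} (hy : Function.Injective y)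
    {m ψ : ι → ℝ} (H : ∀ χ, JJ K y m ψ ≤ JJ K y m χ) : mass K y ψ = m := by
  refine foc hK hy (D := 0) fun δ => ?_
  have := H fun i => ψ i + δ i
  simp only [JJ, mul_add, Finset.sum_add_distrib] at this
  linarith

lemma exists_min {K : Set E} (hK : IsCompact K) (y : ι → E) {m : ι → ℝ} (hm : ∀ i, 0 < m i)
    (hs : ∑ i, m i = volume.real K) : ∃ ψ, ∀ χ, JJ K y m ψ ≤ JJ K y m χ := by
  obtain ⟨j0⟩ := ‹Nonempty ι›
  have hshift : ∀ ψ s, JJ K y m (fun i => ψ i + s) = JJ K y m ψ := by
    intro ψ s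
    simp only [JJ, FF_shift hK, mul_add, Finset.sum_add_distrib, ← Finset.sum_mul, hs]; ring
  obtain ⟨B, hB⟩ : ∃ B : ℝ, ∀ ψ : ι → ℝ, ∃ j, ∀ i, ψ j ≤ ψ i ∧
      m i * (ψ i - ψ j) ≤ JJ K y m ψ + B := by
    refine ⟨∑ j, |∫ x in K, ⟪y j, x⟫_ℝ|, fun ψ => ?_⟩
    obtain ⟨j, hj⟩ := Finite.exists_min ψ
    refine ⟨j, fun i => ⟨hj i, ?_⟩⟩
    have hi : IntegrableOn (fun x => ⟪y j, x⟫_ℝ) K volume :=
      (Continuous.continuousOn (by fun_prop)).integrableOn_compact hK
    have k1 : ∫ x in K, (⟪y j, x⟫_ℝ - ψ j) ≤ FF K y ψ :=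
      integral_mono ((Continuous.continuousOn (by fun_prop)).integrableOn_compact hK)
        ((pot_cont' y ψ).continuousOn.integrableOn_compact hK) fun x => le_pot _ _ _ _
    rw [integral_sub hi (integrableOn_const hK.measure_lt_top.ne)] at k1
    simp only [integral_const, MeasurableSet.univ, measureReal_restrict_apply, univ_inter,
      smul_eq_mul] at k1
    have k2 : |∫ x in K, ⟪y j, x⟫_ℝ| ≤ ∑ j, |∫ x in K, ⟪y j, x⟫_ℝ| :=
      Finset.single_le_sum (f := fun j => |∫ x in K, ⟪y j, x⟫_ℝ|) (fun _ _ => abs_nonneg _)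
        (Finset.mem_univ j)
    have k3 : m i * (ψ i - ψ j) ≤ ∑ i, m i * (ψ i - ψ j) :=
      Finset.single_le_sum (f := fun i => m i * (ψ i - ψ j))
        (fun i _ => mul_nonneg (hm i).le (sub_nonneg.2 (hj i))) (Finset.mem_univ i)
    simp only [mul_sub, Finset.sum_sub_distrib, ← Finset.sum_mul, hs] at k3
    have k4 := neg_abs_le (∫ x in K, ⟪y j, x⟫_ℝ)
    simp only [JJ, mul_sub]
    linarith
  have hc : Continuous fun ψ : ι → ℝ => JJ K y m ψ + |ψ j0| :=
    (JJ_cont hK y m).add (by fun_prop)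
  obtain ⟨ψ, hψ⟩ := hc.exists_forall_le_of_isBounded 0 (by
    set A := JJ K y m 0 + B
    refine (Metric.isBounded_closedBall (x := (0 : ι → ℝ))
      (r := |A| + 2 * ∑ i, |A| / m i)).subset fun ψ hψ => ?_
    simp only [mem_setOf_eq, Pi.zero_apply, abs_zero, add_zero] at hψ
    obtain ⟨j, hj⟩ := hB ψ
    have hpos : 0 ≤ ∑ i, |A| / m i := Finset.sum_nonneg fun i _ => div_nonneg (abs_nonneg _) (hm i).le
    rw [mem_closedBall_zero_iff, pi_norm_le_iff_of_nonneg (by positivity)]
    have k0 : ∀ i, 0 ≤ m i * (ψ i - ψ j) := fun i => mul_nonneg (hm i).le (sub_nonneg.2 (hj i).1)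
    have k1 : ∀ i, ψ i - ψ j ≤ ∑ i, |A| / m i := by
      intro i
      refine le_trans ?_ (Finset.single_le_sum (f := fun i => |A| / m i)
        (fun i _ => div_nonneg (abs_nonneg _) (hm i).le) (Finset.mem_univ i))
      rw [le_div_iff₀ (hm i)]
      linarith [(hj i).2, abs_nonneg (ψ j0), le_abs_self A]
    have k2 : |ψ j0| ≤ |A| := by linarith [(hj j0).2, k0 j0, le_abs_self A]
    intro i
    rw [Real.norm_eq_abs, abs_le]
    have := abs_le.1 k2
    constructor <;> linarith [k1 i, k1 j0, (hj i).1, (hj j0).1])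
  refine ⟨ψ, fun χ => ?_⟩
  have := hψ fun i => χ i + -χ j0
  rw [hshift] at this
  simp only [add_neg_cancel, abs_zero, add_zero] at this
  linarith [abs_nonneg (ψ j0)]

lemma exists_mass {K : Set E} (hK : IsCompact K) {y : ι → E} (hy : Function.Injective y)
    {m : ι → ℝ} (hm : ∀ i, 0 < m i) (hs : ∑ i, m i = volume.real K) : ∃ ψ, mass K y ψ = m := by
  obtain ⟨ψ, h⟩ := exists_min hK y hm hs
  exact ⟨ψ, mass_of_min hK hy h⟩

end Vale.Agent.P074
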