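import Vale.Agent.P074.Path

open MeasureTheory Set
open scoped ENNReal NNReal InnerProductSpace

namespace Vale.Agent.P074

variable {E : Type} [NormedAddCommGroup E] [InnerProductSpace ℝ E] [FiniteDimensional ℝ E]
  [MeasurableSpace E] [BorelSpace E]

lemma shift_int (A : Set E) (h : E) (g : E → ℝ) :
    ∫ x in A, g (x + h) = ∫ x in (fun x => x - h) ⁻¹' A, g x := by
  have := (measurePreserving_add_right (volume : Measure E) h).setIntegral_preimage_emb
    (MeasurableEquiv.addRight h).measurableEmbedding g ((fun x => x - h) ⁻¹' A)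
  rw [← this]
  congr 2
  ext x; simp

lemma shift_vol (A : Set E) (h : E) : volume.real ((fun x => x - h) ⁻¹' A) = volume.real A := by
  simp only [Measure.real, sub_eq_add_neg]
  rw [measure_preimage_add_right]

lemma diff_bound {K A : Set E} (hK : IsCompact K) (hA : MeasurableSet A) (hAK : A ⊆ K)
    {D : E → ℝ} (hD : IntegrableOn D K volume) {c : ℝ}
    (hc : ∀ᵐ x ∂(volume.restrict K), |D x| ≤ c) :
    |(∫ x in K, D x) - ∫ x in A, D x| ≤ c * (volume.real K - volume.real A) := by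
  rw [← setIntegral_sdiff hA hD hAK, ← measureReal_diff hAK hA hK.measure_lt_top.ne,
    ← Real.norm_eq_abs]
  exact norm_setIntegral_le_of_norm_le_const_ae
    ((measure_mono diff_subset).trans_lt hK.measure_lt_top)
    (ae_restrict_of_ae_restrict_of_subset diff_subset hc)

lemma sq5 {a b c d e t : ℝ} (h1 : t ≤ a - c + d + e) (h2 : -t ≤ b - c + d + e) (hd : 0 ≤ d)
    (he : 0 ≤ e) : t ^ 2 ≤ 5 * (a ^ 2 + b ^ 2 + c ^ 2 + d ^ 2 + e ^ 2) := by
  have k : |t| ≤ |a| + |b| + |c| + d + e := by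
    rw [abs_le]
    constructor <;>
      linarith [le_abs_self a, le_abs_self b, neg_abs_le c, abs_nonneg a, abs_nonneg b]
  have k2 : t ^ 2 ≤ (|a| + |b| + |c| + d + e) ^ 2 := by
    rw [← sq_abs t]; exact pow_le_pow_left₀ (abs_nonneg _) k 2
  rw [← sq_abs a, ← sq_abs b, ← sq_abs c]
  refine k2.trans ?_
  generalize |a| = a; generalize |b| = b; generalize |c| = c
  nlinarith [sq_nonneg (a - b), sq_nonneg (a - c), sq_nonneg (a - d), sq_nonneg (a - e),
    sq_nonneg (b - c), sq_nonneg (b - d), sq_nonneg (b - e), sq_nonneg (c - d), sq_nonneg (c - e),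
    sq_nonneg (d - e)]

lemma gn_dir {K A : Set E} (hK : IsCompact K) (hA : MeasurableSet A) (hAK : A ⊆ K) {h : E}
    (hp : ∀ x ∈ A, x + h ∈ K) (hm : ∀ x ∈ A, x - h ∈ K) {u v : E → ℝ} (hu : Continuous u)
    (hv : Continuous v) {L G : ℝ} (hL : 0 ≤ L) (hG : 0 ≤ G)
    (hvL : ∀ x z, |v x - v z| ≤ L * ‖x - z‖) (hvc : ∀ x, 2 * v x ≤ v (x + h) + v (x - h))
    {T S : E → E} (hT : Measurable T) (hS : Measurable S) {g1 g2 : E → ℝ}
    (hg : IntegrableOn (fun x => g1 x + g2 x) K volume)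
    (H : ∀ᵐ x ∂(volume.restrict K), ‖T x‖ ≤ L ∧ ‖S x‖ ≤ L ∧ 0 ≤ g1 x + g2 x ∧ g1 x + g2 x ≤ G ∧
      (∀ z ∈ K, u x + ⟪T x, z - x⟫_ℝ - g1 x ≤ u z) ∧
      (∀ z ∈ K, v x + ⟪S x, z - x⟫_ℝ - g2 x ≤ v z)) :
    ∫ x in K, ⟪T x - S x, h⟫_ℝ ^ 2 ≤ 15 * (∫ x in K, (u x - v x) ^ 2)
      + 5 * G * (∫ x in K, (g1 x + g2 x))
      + 24 * L ^ 2 * ‖h‖ ^ 2 * (volume.real K - volume.real A) := by
  have : IsFiniteMeasure (volume.restrict K) := ⟨by simpa using hK.measure_lt_top⟩
  have ci : ∀ {f : E → ℝ}, Continuous f → IntegrableOn f K volume := fun hf =>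
    hf.continuousOn.integrableOn_compact hK
  have ciA : ∀ {f : E → ℝ}, Continuous f → IntegrableOn f A volume := fun hf =>
    (ci hf).mono_set hAK
  have hbd : ∀ᵐ x ∂(volume.restrict K), |⟪T x - S x, h⟫_ℝ ^ 2| ≤ 4 * L ^ 2 * ‖h‖ ^ 2 := by
    filter_upwards [H] with x hx
    rw [abs_pow]
    have k1 : |⟪T x - S x, h⟫_ℝ| ≤ 2 * L * ‖h‖ := by
      refine (abs_real_inner_le_norm _ _).trans (mul_le_mul_of_nonneg_right ?_ (norm_nonneg _))
      linarith [norm_sub_le (T x) (S x), hx.1, hx.2.1]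
    refine (pow_le_pow_left₀ (abs_nonneg _) k1 2).trans (le_of_eq (by ring))
  have hI : IntegrableOn (fun x => ⟪T x - S x, h⟫_ℝ ^ 2) K volume :=
    Integrable.of_bound (Measurable.aestronglyMeasurable (by fun_prop)) _ hbd
  have s1 := (abs_le.1 (diff_bound hK hA hAK hI hbd)).2
  set η := volume.real K - volume.real A with hη
  set f : E → ℝ := fun x => (u x - v x) ^ 2 with hf
  have hfc : Continuous f := by fun_prop
  have hf0 : ∀ᵐ x ∂(volume.restrict K), (0 : E → ℝ) x ≤ f x :=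
    Filter.Eventually.of_forall fun x => sq_nonneg _
  have s2 : ∀ k : E, (∀ x ∈ A, x + k ∈ K) → ∫ x in A, f (x + k) ≤ ∫ x in K, f x := by
    intro k hk
    rw [shift_int]
    refine setIntegral_mono_set (ci hfc) hf0 (HasSubset.Subset.eventuallyLE fun x hx => ?_)
    simpa using hk _ hx
  have s3 := s2 h hp
  have s4 := s2 (-h) (by simpa [← sub_eq_add_neg] using hm)
  have s5 := s2 0 (by simpa using fun x hx => hAK hx)
  set D : E → ℝ := fun x => v (x + h) - v x with hD
  have hDc : Continuous D := by fun_prop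
  have hDb : ∀ x, |D x| ≤ L * ‖h‖ := fun x => by simpa using hvL (x + h) x
  have s6 : (∫ x in A, D x) - ∫ x in A, D (x + -h) ≤ 2 * (L * ‖h‖) * η := by
    rw [shift_int]
    have k1 := abs_le.1 (diff_bound hK hA hAK (ci hDc) (Filter.Eventually.of_forall hDb))
    have k2 := abs_le.1 (diff_bound hK (A := (fun x => x - -h) ⁻¹' A)
      (hA.preimage (by fun_prop)) (fun x hx => by simpa using hm _ hx) (ci hDc)
      (Filter.Eventually.of_forall hDb))
    rw [shift_vol] at k2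
    linarith [k1.1, k2.2]
  have s7 : ∫ x in A, (g1 x + g2 x) ≤ ∫ x in K, (g1 x + g2 x) :=
    setIntegral_mono_set hg (by filter_upwards [H] with x hx using hx.2.2.1)
      (HasSubset.Subset.eventuallyLE hAK)
  have s8 : ∫ x in A, ⟪T x - S x, h⟫_ℝ ^ 2 ≤ ∫ x in A, (5 * f (x + h) + 5 * f (x + -h)
      + 5 * f (x + 0) + 10 * (L * ‖h‖) * (D x - D (x + -h)) + 5 * G * (g1 x + g2 x)) := by
    refine integral_mono_ae (hI.mono_set hAK) ?_ ?_
    · exact (ciA (by fun_prop)).add ((hg.mono_set hAK).const_mul _)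
    filter_upwards [ae_restrict_of_ae_restrict_of_subset hAK H, ae_restrict_mem hA] with x hx hxA
    obtain ⟨-, -, g0, gG, hu', hv'⟩ := hx
    have a1 := hu' _ (hp x hxA)
    have a2 := hu' _ (hm x hxA)
    have a3 := hv' _ (hp x hxA)
    have a4 := hv' _ (hm x hxA)
    simp only [add_sub_cancel_left, sub_sub_cancel_left, inner_neg_right] at a1 a2 a3 a4
    have e : D x - D (x + -h) = v (x + h) + v (x - h) - 2 * v x := by
      simp only [hD, ← sub_eq_add_neg, sub_add_cancel]; ring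
    have d0 : 0 ≤ D x - D (x + -h) := by rw [e]; linarith [hvc x]
    have d1 : D x - D (x + -h) ≤ 2 * (L * ‖h‖) := by
      linarith [(abs_le.1 (hDb x)).2, (abs_le.1 (hDb (x + -h))).1]
    have k := sq5 (t := ⟪T x - S x, h⟫_ℝ) (a := u (x + h) - v (x + h))
      (b := u (x - h) - v (x - h)) (c := u x - v x) (d := D x - D (x + -h)) (e := g1 x + g2 x)
      (by rw [e, inner_sub_left]; linarith) (by rw [e, inner_sub_left]; linarith) d0 g0
    simp only [hf, ← sub_eq_add_neg, add_zero] at k d0 d1 ⊢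
    nlinarith [mul_le_mul_of_nonneg_left d1 d0, mul_le_mul_of_nonneg_left gG g0]
  rw [integral_add (ciA (by fun_prop)) ((hg.mono_set hAK).const_mul _),
    integral_add (ciA (by fun_prop)) (ciA (by fun_prop)),
    integral_add (ciA (by fun_prop)) (ciA (by fun_prop)),
    integral_add (ciA (by fun_prop)) (ciA (by fun_prop)), integral_const_mul, integral_const_mul,
    integral_const_mul, integral_const_mul, integral_const_mul,
    integral_sub (ciA (by fun_prop)) (ciA (by fun_prop))] at s8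
  have s9 := mul_le_mul_of_nonneg_left s6 (show 0 ≤ 10 * (L * ‖h‖) by positivity)
  have s10 := mul_le_mul_of_nonneg_left s7 (show 0 ≤ 5 * G by positivity)
  linarith

lemma inner_core {K : Set E} (hK : IsCompact K) (hKc : Convex ℝ K) {x0 : E} {r : ℝ}
    (hr : Metric.closedBall x0 r ⊆ K) {l : ℝ} (hl0 : 0 < l) (hl1 : l < 1) :
    ∃ A : Set E, MeasurableSet A ∧ A ⊆ K ∧ (∀ e : E, ‖e‖ ≤ r → ∀ x ∈ A, x + l • e ∈ K) ∧
      volume.real K - volume.real A ≤ Module.finrank ℝ E * l * volume.real K := by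
  have key : ∀ e : E, ‖e‖ ≤ r → ∀ x ∈ AffineMap.homothety x0 (1 - l) '' K, x + l • e ∈ K := by
    rintro e he _ ⟨k, hk, rfl⟩
    have h1 : x0 + e ∈ K := hr (by simpa using he)
    have := hKc hk h1 (show 0 ≤ 1 - l by linarith) hl0.le (by ring)
    convert this using 1
    simp only [AffineMap.homothety_apply, vsub_eq_sub, vadd_eq_add, smul_sub, smul_add, sub_smul,
      one_smul]
    abel
  by_cases hr0 : 0 ≤ r
  · refine ⟨AffineMap.homothety x0 (1 - l) '' K,
      (hK.image (AffineMap.homothety_continuous _ _)).measurableSet, ?_, key, ?_⟩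
    · intro x hx
      simpa using key 0 (by simpa using hr0) x hx
    · simp only [Measure.real]
      rw [Measure.addHaar_image_homothety, ENNReal.toReal_mul, ENNReal.toReal_ofReal (abs_nonneg _),
        abs_of_nonneg (pow_nonneg (by linarith) _)]
      have := one_add_mul_le_pow (show -2 ≤ -l by linarith) (Module.finrank ℝ E)
      rw [← sub_eq_add_neg] at this
      nlinarith [ENNReal.toReal_nonneg (a := volume K)]
  · refine ⟨K, hK.measurableSet, subset_rfl, fun e he => absurd ((norm_nonneg e).trans he) hr0, ?_⟩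
    rw [sub_self]; positivity

lemma gn {K : Set E} (hK : IsCompact K) (hKc : Convex ℝ K) {x0 : E} {r : ℝ} (hr0 : 0 < r)
    (hr : Metric.closedBall x0 r ⊆ K) {l : ℝ} (hl0 : 0 < l) (hl1 : l < 1)
    {u v : E → ℝ} (hu : Continuous u)
    (hv : Continuous v) {L G : ℝ} (hL : 0 ≤ L) (hG : 0 ≤ G)
    (hvL : ∀ x z, |v x - v z| ≤ L * ‖x - z‖) (hvc : ∀ x h, 2 * v x ≤ v (x + h) + v (x - h))
    {T S : E → E} (hT : Measurable T) (hS : Measurable S) {g1 g2 : E → ℝ}
    (hg : IntegrableOn (fun x => g1 x + g2 x) K volume)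
    (H : ∀ᵐ x ∂(volume.restrict K), ‖T x‖ ≤ L ∧ ‖S x‖ ≤ L ∧ 0 ≤ g1 x + g2 x ∧ g1 x + g2 x ≤ G ∧
      (∀ z ∈ K, u x + ⟪T x, z - x⟫_ℝ - g1 x ≤ u z) ∧
      (∀ z ∈ K, v x + ⟪S x, z - x⟫_ℝ - g2 x ≤ v z)) :
    ∫ x in K, ‖T x - S x‖ ^ 2 ≤ Module.finrank ℝ E * ((15 * (∫ x in K, (u x - v x) ^ 2)
      + 5 * G * (∫ x in K, (g1 x + g2 x))) / (l * r) ^ 2
      + 24 * L ^ 2 * (Module.finrank ℝ E * l * volume.real K)) := by
  have : IsFiniteMeasure (volume.restrict K) := ⟨by simpa using hK.measure_lt_top⟩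
  obtain ⟨A, hA, hAK, hsh, hvol⟩ := inner_core hK hKc hr hl0 hl1
  set b := stdOrthonormalBasis ℝ E
  have h2 : ∀ z : E, ‖z‖ ^ 2 = ∑ k, ⟪z, b k⟫_ℝ ^ 2 := fun z => by
    rw [← b.sum_sq_norm_inner_left z]; simp
  simp only [h2]
  rw [integral_finset_sum]
  · refine (Finset.sum_le_card_nsmul _ _ ((15 * (∫ x in K, (u x - v x) ^ 2)
      + 5 * G * (∫ x in K, (g1 x + g2 x))) / (l * r) ^ 2
      + 24 * L ^ 2 * (Module.finrank ℝ E * l * volume.real K)) fun k _ => ?_).trans (le_of_eq ?_)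
    rotate_left
    · simp only [Finset.card_univ, Fintype.card_fin, nsmul_eq_mul]
    have n1 : ‖b k‖ = 1 := b.orthonormal.1 k
    have n2 : ‖r • b k‖ = r := by rw [norm_smul, n1, mul_one, Real.norm_of_nonneg hr0.le]
    have key := gn_dir hK hA hAK (h := l • r • b k) (hsh _ n2.le)
      (fun x hx => by simpa [sub_eq_add_neg] using hsh (-(r • b k)) (by rw [norm_neg, n2]) x hx)
      hu hv hL hG hvL (fun x => hvc x _) hT hS hg H
    simp only [inner_smul_right, ← mul_assoc, mul_pow] at key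
    rw [integral_const_mul, norm_smul, n2, Real.norm_of_nonneg hl0.le, ← mul_pow] at key
    have hp : 0 < (l * r) ^ 2 := by positivity
    rw [← sub_le_iff_le_add, le_div_iff₀ hp]
    have := mul_le_mul_of_nonneg_left hvol (show 0 ≤ 24 * L ^ 2 * (l * r) ^ 2 by positivity)
    nlinarith
  · intro k _
    refine Integrable.of_bound (Measurable.aestronglyMeasurable (by fun_prop)) (4 * L ^ 2) ?_
    filter_upwards [H] with x hx
    rw [Real.norm_eq_abs, abs_pow]
    have k1 : |⟪T x - S x, b k⟫_ℝ| ≤ 2 * L := by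
      refine (abs_real_inner_le_norm _ _).trans ?_
      rw [b.orthonormal.1 k]
      linarith [norm_sub_le (T x) (S x), hx.1, hx.2.1]
    refine (pow_le_pow_left₀ (abs_nonneg _) k1 2).trans (le_of_eq (by ring))

end Vale.Agent.P074
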