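import Vale.Agent.P074.Upper
import Vale.Agent.P074.Defs

open MeasureTheory Set
open scoped ENNReal NNReal InnerProductSpace

namespace Vale.Agent.P074

section
variable {E : Type} [NormedAddCommGroup E] [InnerProductSpace ℝ E] [FiniteDimensional ℝ E]
  [MeasurableSpace E] [BorelSpace E]

lemma cost_eq (σ : Measure E) [IsFiniteMeasure σ] {R D : ℝ} (hR : ∀ᵐ x ∂σ, ‖x‖ ≤ R) {U : E → E}
    (hU : Measurable U) (hD : ∀ᵐ x ∂σ, ‖U x‖ ≤ D) :
    ∫ x, ‖x - U x‖ ^ 2 ∂σ
      = (∫ x, ‖x‖ ^ 2 ∂σ) - 2 * (∫ x, ⟪U x, x⟫_ℝ ∂σ) + ∫ y, ‖y‖ ^ 2 ∂(σ.map U) := by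
  have i1 : Integrable (fun x : E => ‖x‖ ^ 2) σ := by
    refine Integrable.of_bound (Measurable.aestronglyMeasurable (by fun_prop)) (R ^ 2) ?_
    filter_upwards [hR] with x hx
    rw [Real.norm_of_nonneg (sq_nonneg _)]
    exact pow_le_pow_left₀ (norm_nonneg _) hx 2
  have i2 : Integrable (fun x : E => ‖U x‖ ^ 2) σ := by
    refine Integrable.of_bound (Measurable.aestronglyMeasurable (by fun_prop)) (D ^ 2) ?_
    filter_upwards [hD] with x hx
    rw [Real.norm_of_nonneg (sq_nonneg _)]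
    exact pow_le_pow_left₀ (norm_nonneg _) hx 2
  have i3 : Integrable (fun x : E => 2 * ⟪U x, x⟫_ℝ) σ := by
    refine Integrable.const_mul ?_ 2
    refine Integrable.of_bound (Measurable.aestronglyMeasurable (by fun_prop)) (D * R) ?_
    filter_upwards [hD, hR] with x hx hx'
    exact (abs_real_inner_le_norm _ _).trans
      (mul_le_mul hx hx' (norm_nonneg _) ((norm_nonneg _).trans hx))
  have i4 : Integrable (fun x : E => ‖x‖ ^ 2 - 2 * ⟪U x, x⟫_ℝ) σ := i1.sub i3
  rw [integral_map hU.aemeasurable (by fun_prop), ← integral_const_mul, ← integral_sub i1 i3,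
    ← integral_add i4 i2]
  refine integral_congr_ae (Filter.Eventually.of_forall fun x => ?_)
  simp only
  rw [norm_sub_sq_real, real_inner_comm]

lemma unif_prob {K : Set E} (h0 : volume K ≠ 0) (h1 : volume K ≠ ⊤) :
    IsProbabilityMeasure (unif K) := ⟨by simp [unif, ENNReal.inv_mul_cancel h0 h1]⟩

lemma smul_unif {K : Set E} (h0 : volume K ≠ 0) (h1 : volume K ≠ ⊤) :
    volume K • unif K = volume.restrict K := by
  simp [unif, smul_smul, ENNReal.mul_inv_cancel h0 h1]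

lemma ae_unif {K : Set E} (h1 : volume K ≠ ⊤) {p : E → Prop} :
    (∀ᵐ x ∂unif K, p x) ↔ ∀ᵐ x ∂(volume.restrict K), p x :=
  Measure.ae_ennreal_smul_measure_iff (by simpa using h1)

lemma int_unif (K : Set E) (g : E → ℝ) :
    ∫ x, g x ∂unif K = (volume.real K)⁻¹ * ∫ x in K, g x := by
  simp [unif, integral_smul_measure, Measure.real]

lemma W2_bdd (μ ν : Measure E) :
    BddBelow {c | ∃ π, IsCoupling π μ ν ∧ c = √(∫ p, ‖p.1 - p.2‖ ^ 2 ∂π)} :=
  ⟨0, by rintro _ ⟨π, -, rfl⟩; exact Real.sqrt_nonneg _⟩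

lemma W2_nonneg (μ ν : Measure E) : 0 ≤ W2 μ ν :=
  Real.sInf_nonneg (by rintro _ ⟨π, -, rfl⟩; exact Real.sqrt_nonneg _)

lemma ot_facts {K Y : Set E} (hK : IsCompact K) (h0 : volume K ≠ 0) (hY : IsCompact Y) {D : ℝ}
    (hYD : Y ⊆ Metric.closedBall 0 D) {μ : Measure E} {T : E → E} (hμ : InP Y μ)
    (hT : IsOTMap K μ T) :
    (∀ᵐ x ∂(volume.restrict K), ‖T x‖ ≤ D) ∧
      (∀ U : E → E, Measurable U → (volume.restrict K).map U = (volume.restrict K).map T →
        ∫ x in K, ⟪U x, x⟫_ℝ ≤ ∫ x in K, ⟪T x, x⟫_ℝ) := by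
  have h1 := hK.measure_lt_top (μ := volume).ne
  have := unif_prob h0 h1
  have hb : ∀ U, IsTransport K μ U → ∀ᵐ x ∂unif K, ‖U x‖ ≤ D := by
    intro U hU
    have : ∀ᵐ y ∂μ, y ∈ Y := hμ.2
    rw [← hU.2] at this
    filter_upwards [(ae_map_iff hU.1.aemeasurable hY.measurableSet).1 this] with x hx
    simpa using hYD hx
  refine ⟨(ae_unif h1).1 (hb T hT.1), fun U hU hUT => ?_⟩
  have hU' : IsTransport K μ U := ⟨hU, by
    rw [← hT.1.2, unif, Measure.map_smul, Measure.map_smul, hUT]⟩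
  obtain ⟨R, hR⟩ := hK.isBounded.subset_closedBall 0
  have hx : ∀ᵐ x ∂unif K, ‖x‖ ≤ R := (ae_unif h1).2 (by
    filter_upwards [ae_restrict_mem hK.measurableSet] with x hx
    simpa using hR hx)
  have k := hT.2 U hU'
  rw [cost_eq _ hx hU (hb U hU'), cost_eq _ hx hT.1.1 (hb T hT.1), hU'.2, hT.1.2,
    int_unif K fun x => ⟪U x, x⟫_ℝ, int_unif K fun x => ⟪T x, x⟫_ℝ] at k
  have hp : 0 < (volume.real K)⁻¹ := inv_pos.2 (ENNReal.toReal_pos h0 h1)
  exact le_of_mul_le_mul_left (by linarith) hp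

theorem upper (hd : 2 ≤ Module.finrank ℝ E) : Admissible E (1 / 3) := by
  refine ⟨⟨by norm_num, by norm_num⟩, fun K Y ⟨hK, hKc, x0, hx0⟩ hY _ => ?_⟩
  obtain ⟨r, hr0, hr⟩ := Metric.nhds_basis_closedBall.mem_iff.1 (mem_interior_iff_mem_nhds.1 hx0)
  obtain ⟨R, hR0, hR⟩ := hK.isBounded.subset_closedBall_lt 0 0
  obtain ⟨D, hD0, hD⟩ := hY.isBounded.subset_closedBall_lt 0 0
  have h0 : volume K ≠ 0 :=
    ((Metric.measure_closedBall_pos volume x0 hr0).trans_le (measure_mono hr)).ne'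
  have h1 := hK.measure_lt_top (μ := volume).ne
  have hp : 0 < volume.real K := ENNReal.toReal_pos h0 h1
  set α : ℝ := 30 * Module.finrank ℝ E * (320 * Module.finrank ℝ E + 12) * R ^ 2 / r ^ 2
  set β : ℝ := 24 * (D + 2) ^ 2 * Module.finrank ℝ E ^ 2
  have hα : 0 ≤ α := by positivity
  have hβ : 0 < β := by
    have : (0 : ℝ) < Module.finrank ℝ E := by exact_mod_cast (by omega : 0 < Module.finrank ℝ E)
    positivity
  set C := √(α * ((D + D) ^ 2 + 2) ^ 2 + β) with hC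
  have hC0 : 0 < C := Real.sqrt_pos.2 (by positivity)
  refine ⟨C, fun μ ν T S hμ hν hT hS => ?_⟩
  obtain ⟨t1, t2⟩ := ot_facts hK h0 hY hD hμ hT
  obtain ⟨s1, s2⟩ := ot_facts hK h0 hY hD hν hS
  have main : ∀ π, IsCoupling π μ ν → √(∫ x, ‖T x - S x‖ ^ 2 ∂unif K)
      ≤ C * (√(∫ p, ‖p.1 - p.2‖ ^ 2 ∂π)) ^ (1 / 3 : ℝ) := by
    rintro π ⟨hπ, π1, π2⟩
    refine optimize hα hβ.le (integral_nonneg fun _ => sq_nonneg _) ?_ fun l hl0 hl1 => ?_
    · have p1 : ∀ᵐ p ∂π, p.1 ∈ Y := by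
        have : ∀ᵐ y ∂μ, y ∈ Y := hμ.2
        rw [← π1] at this
        exact (ae_map_iff measurable_fst.aemeasurable hY.measurableSet).1 this
      have p2 : ∀ᵐ p ∂π, p.2 ∈ Y := by
        have : ∀ᵐ y ∂ν, y ∈ Y := hν.2
        rw [← π2] at this
        exact (ae_map_iff measurable_snd.aemeasurable hY.measurableSet).1 this
      have := norm_integral_le_of_norm_le_const (μ := π) (f := fun p => ‖p.1 - p.2‖ ^ 2)
        (C := (D + D) ^ 2) (by
          filter_upwards [p1, p2] with p a1 a2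
          rw [Real.norm_of_nonneg (sq_nonneg _)]
          exact pow_le_pow_left₀ (norm_nonneg _) ((norm_sub_le _ _).trans
            (add_le_add (by simpa using hD a1) (by simpa using hD a2))) 2)
      simp only [probReal_univ, mul_one] at this
      linarith [le_abs_self (∫ p, ‖p.1 - p.2‖ ^ 2 ∂π), Real.norm_eq_abs (∫ p, ‖p.1 - p.2‖ ^ 2 ∂π)]
    · have : IsFiniteMeasure (volume K • π) := Measure.smul_finite π h1
      have k := core hd hK hKc hr0 hr hR0.le hD0.le hR hT.1.1 hS.1.1 t1 s1 t2 s2 (volume K • π)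
        (by rw [Measure.map_smul, π1, ← hT.1.2, ← Measure.map_smul, smul_unif h0 h1])
        (by rw [Measure.map_smul, π2, ← hS.1.2, ← Measure.map_smul, smul_unif h0 h1]) hl0 hl1
      rw [integral_smul_measure, smul_eq_mul] at k
      rw [int_unif, inv_mul_le_iff₀ hp]
      refine k.trans (le_of_eq ?_)
      simp only [Measure.real, α, β]
      ring
  set a := √(∫ x, ‖T x - S x‖ ^ 2 ∂unif K)
  have a0 : 0 ≤ a := Real.sqrt_nonneg _
  have k1 : (a / C) ^ (3 : ℝ) ≤ W2 μ ν := by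
    have := hμ.1
    have := hν.1
    refine le_csInf ⟨_, μ.prod ν, ⟨inferInstance, by simp, by simp⟩, rfl⟩ ?_
    rintro _ ⟨π, hπ, rfl⟩
    have := main π hπ
    rw [← div_le_iff₀' hC0] at this
    refine (Real.rpow_le_rpow (by positivity) this (by norm_num)).trans (le_of_eq ?_)
    rw [← Real.rpow_mul (Real.sqrt_nonneg _)]; norm_num
  rw [← div_le_iff₀' hC0]
  refine le_trans (le_of_eq ?_) (Real.rpow_le_rpow (by positivity) k1 (by norm_num))
  rw [← Real.rpow_mul (by positivity)]; norm_num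

end

section
variable (n : ℕ)

abbrev EE := EuclideanSpace ℝ (Fin (n + 2))

/-- A coordinate box. -/
def box (l0 u0 l1 u1 : ℝ) : Set (EE n) :=
  WithLp.ofLp ⁻¹' Icc (Fin.cons l0 (Fin.cons l1 fun _ => -1) : Fin (n + 2) → ℝ)
    (Fin.cons u0 (Fin.cons u1 fun _ => 1))

variable {n}

lemma mem_box {l0 u0 l1 u1 : ℝ} {x : EE n} : x ∈ box n l0 u0 l1 u1 ↔
    (l0 ≤ x 0 ∧ l1 ≤ x 1 ∧ ∀ i : Fin n, -1 ≤ x i.succ.succ) ∧
      x 0 ≤ u0 ∧ x 1 ≤ u1 ∧ ∀ i : Fin n, x i.succ.succ ≤ 1 := by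
  simp [box, Pi.le_def, Fin.forall_fin_succ]

lemma box_meas {l0 u0 l1 u1 : ℝ} : MeasurableSet (box n l0 u0 l1 u1) :=
  measurableSet_Icc.preimage (PiLp.volume_preserving_ofLp _).measurable

lemma vol_box {l0 u0 l1 u1 : ℝ} : volume (box n l0 u0 l1 u1)
    = ENNReal.ofReal (u0 - l0) * (ENNReal.ofReal (u1 - l1) * 2 ^ n) := by
  rw [box, (PiLp.volume_preserving_ofLp _).measure_preimage measurableSet_Icc.nullMeasurableSet,
    Real.volume_Icc_pi]
  simp [Fin.prod_univ_succ, one_add_one_eq_two]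

lemma vol_box' {l0 u0 l1 u1 : ℝ} (h0 : l0 ≤ u0) (h1 : l1 ≤ u1) :
    volume.real (box n l0 u0 l1 u1) = (u0 - l0) * ((u1 - l1) * 2 ^ n) := by
  simp [Measure.real, vol_box, ENNReal.toReal_ofReal (sub_nonneg.2 h0),
    ENNReal.toReal_ofReal (sub_nonneg.2 h1)]

lemma cube_body : IsConvexBody (box n (-1) 1 (-1) 1) := by
  refine ⟨?_, ?_, 0, ?_⟩
  · exact (PiLp.homeomorph 2 (fun _ : Fin (n + 2) => ℝ)).isCompact_preimage.2 isCompact_Icc
  · exact (convex_Icc _ _).linear_preimage (WithLp.linearEquiv 2 ℝ (Fin (n + 2) → ℝ)).toLinearMap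
  · refine mem_interior_iff_mem_nhds.2 (Filter.mem_of_superset
      (Metric.closedBall_mem_nhds 0 one_pos) fun x hx => ?_)
    have h : ∀ i, |x i| ≤ 1 := fun i => (PiLp.norm_apply_le x i).trans (by simpa using hx)
    exact mem_box.2 ⟨⟨(abs_le.1 (h _)).1, (abs_le.1 (h _)).1, fun i => (abs_le.1 (h _)).1⟩,
      (abs_le.1 (h _)).2, (abs_le.1 (h _)).2, fun i => (abs_le.1 (h _)).2⟩

/-- The three-atom transport map. -/
noncomputable def TT (a s : ℝ) (x : EE n) : EE n :=
  if |x 0| ≤ a + s * x 1 then EuclideanSpace.single 1 s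
  else if 0 ≤ x 0 then EuclideanSpace.single 0 1 else EuclideanSpace.single 0 (-1)

lemma TT_meas (a s : ℝ) : Measurable (TT (n := n) a s) :=
  Measurable.ite (measurableSet_le (by fun_prop) (by fun_prop)) measurable_const
    (Measurable.ite (measurableSet_le (by fun_prop) (by fun_prop)) measurable_const
      measurable_const)

lemma TT_mem (a s : ℝ) (x : EE n) : TT a s x ∈ ({EuclideanSpace.single 1 s,
    EuclideanSpace.single 0 1, EuclideanSpace.single 0 (-1)} : Set (EE n)) := by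
  unfold TT; split_ifs <;> simp

lemma TT_norm (a : ℝ) {s : ℝ} (hs : |s| ≤ 1) {y : EE n} (hy : y ∈ ({EuclideanSpace.single 1 s,
    EuclideanSpace.single 0 1, EuclideanSpace.single 0 (-1)} : Set (EE n))) : ‖y‖ ≤ 1 := by
  rcases hy with rfl | rfl | rfl <;> simp [hs]

lemma TT_opt (a s : ℝ) (x : EE n) {y : EE n} (hy : y ∈ ({EuclideanSpace.single 1 s,
    EuclideanSpace.single 0 1, EuclideanSpace.single 0 (-1)} : Set (EE n))) :
    ⟪y, x⟫_ℝ + a * (1 - y 0 ^ 2) ≤ ⟪TT a s x, x⟫_ℝ + a * (1 - TT a s x 0 ^ 2) := by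
  have h1 := le_abs_self (x 0)
  have h2 := neg_abs_le (x 0)
  unfold TT
  split_ifs with c1 c2
  · rcases hy with rfl | rfl | rfl <;> simp [EuclideanSpace.inner_single_left] <;> linarith
  · rw [abs_of_nonneg c2] at c1
    rcases hy with rfl | rfl | rfl <;> simp [EuclideanSpace.inner_single_left] <;> linarith
  · rw [abs_of_neg (lt_of_not_ge c2)] at c1
    rcases hy with rfl | rfl | rfl <;> simp [EuclideanSpace.inner_single_left] <;> linarith

lemma cube_ne : volume (box n (-1) 1 (-1) 1) ≠ 0 := by simp [vol_box]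

lemma cube_fin : volume (box n (-1) 1 (-1) 1) ≠ ⊤ := cube_body.1.measure_lt_top.ne

lemma TT_ot (a : ℝ) {s : ℝ} (hs : |s| ≤ 1) :
    InP (Metric.closedBall 0 1) ((unif (box n (-1) 1 (-1) 1)).map (TT a s)) ∧
    IsOTMap (box n (-1) 1 (-1) 1) ((unif (box n (-1) 1 (-1) 1)).map (TT a s)) (TT a s) := by
  have := unif_prob (cube_ne (n := n)) cube_fin
  set ρ := unif (box n (-1) 1 (-1) 1) with hρ
  have hm := TT_meas (n := n) a s
  refine ⟨⟨Measure.isProbabilityMeasure_map hm.aemeasurable, ?_⟩, ⟨hm, rfl⟩, fun U hU => ?_⟩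
  · refine (ae_map_iff (p := fun y => y ∈ Metric.closedBall (0 : EE n) 1) hm.aemeasurable
      measurableSet_closedBall).2 (Filter.Eventually.of_forall fun x => ?_)
    simpa using TT_norm a hs (TT_mem a s x)
  set F : Set (EE n) := {EuclideanSpace.single 1 s, EuclideanSpace.single 0 1,
    EuclideanSpace.single 0 (-1)}
  have hF : MeasurableSet F := (Set.toFinite F).measurableSet
  have hUF : ∀ᵐ x ∂ρ, U x ∈ F := by
    have := (ae_map_iff (μ := ρ) hm.aemeasurable hF).2 (Filter.Eventually.of_forall (TT_mem a s))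
    rw [← hU.2] at this
    exact (ae_map_iff hU.1.aemeasurable hF).1 this
  obtain ⟨R, hR⟩ := (cube_body (n := n)).1.isBounded.subset_closedBall 0
  have hx : ∀ᵐ x ∂ρ, ‖x‖ ≤ R := (ae_unif cube_fin).2 (by
    filter_upwards [ae_restrict_mem box_meas] with x hx
    simpa using hR hx)
  have facts : ∀ V : EE n → EE n, Measurable V → (∀ᵐ x ∂ρ, V x ∈ F) →
      Integrable (fun x => ⟪V x, x⟫_ℝ) ρ ∧ Integrable (fun x => a * (1 - V x 0 ^ 2)) ρ := by
    intro V hV hVF
    constructor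
    · refine Integrable.of_bound (Measurable.aestronglyMeasurable (by fun_prop)) (1 * R) ?_
      filter_upwards [hVF, hx] with x h1 h2
      exact (abs_real_inner_le_norm _ _).trans
        (mul_le_mul (TT_norm a hs h1) h2 (norm_nonneg _) zero_le_one)
    · refine Integrable.const_mul ?_ _
      refine Integrable.of_bound (Measurable.aestronglyMeasurable (by fun_prop)) 1 ?_
      filter_upwards [hVF] with x h1
      simp only [F, mem_insert_iff, mem_singleton_iff] at h1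
      rcases h1 with h | h | h <;> simp [h]
  obtain ⟨i1, i2⟩ := facts U hU.1 hUF
  obtain ⟨i3, i4⟩ := facts _ hm (Filter.Eventually.of_forall (TT_mem a s))
  rw [cost_eq ρ hx hU.1 (hUF.mono fun x h => TT_norm a hs h),
    cost_eq ρ hx hm (Filter.Eventually.of_forall fun x => TT_norm a hs (TT_mem a s x)), hU.2]
  have k1 : ∫ x, (⟪U x, x⟫_ℝ + a * (1 - U x 0 ^ 2)) ∂ρ
      ≤ ∫ x, (⟪TT a s x, x⟫_ℝ + a * (1 - TT a s x 0 ^ 2)) ∂ρ :=
    integral_mono_ae (i1.add i2) (i3.add i4) (hUF.mono fun x h => TT_opt a s x h)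
  rw [integral_add i1 i2, integral_add i3 i4] at k1
  have k2 : ∫ x, a * (1 - U x 0 ^ 2) ∂ρ = ∫ x, a * (1 - TT a s x 0 ^ 2) ∂ρ := by
    have hg : Continuous fun y : EE n => a * (1 - y 0 ^ 2) := by fun_prop
    rw [← integral_map hU.1.aemeasurable hg.aestronglyMeasurable,
      ← integral_map hm.aemeasurable hg.aestronglyMeasurable, hU.2]
  linarith

/-- Reflection of the second coordinate. -/
noncomputable def refl1 : EE n ≃ₗᵢ[ℝ] EE n :=
  LinearIsometryEquiv.piLpCongrRight 2 fun i =>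
    if i = 1 then LinearIsometryEquiv.neg ℝ else LinearIsometryEquiv.refl ℝ ℝ

lemma refl1_0 (x : EE n) : refl1 x 0 = x 0 := by simp [refl1]
lemma refl1_1 (x : EE n) : refl1 x 1 = -x 1 := by simp [refl1]
lemma refl1_2 (x : EE n) (i : Fin n) : refl1 x i.succ.succ = x i.succ.succ := by
  have : i.succ.succ ≠ 1 := by
    intro h; have := congrArg Fin.val h; simp at this
  simp [refl1, this]

lemma refl1_map : (unif (box n (-1) 1 (-1) 1)).map refl1 = unif (box n (-1) 1 (-1) 1) := by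
  have h1 := (refl1 (n := n)).measurePreserving.restrict_preimage (box_meas (l0 := -1) (u0 := 1)
    (l1 := -1) (u1 := 1))
  have h2 : refl1 ⁻¹' box n (-1) 1 (-1) 1 = box n (-1) 1 (-1) 1 := by
    ext x
    simp only [mem_preimage, mem_box, refl1_0, refl1_1, refl1_2]
    constructor <;> rintro ⟨⟨a1, a2, a3⟩, a4, a5, a6⟩ <;>
      exact ⟨⟨a1, by linarith, a3⟩, a4, by linarith, a6⟩
  rw [h2] at h1
  rw [unif, Measure.map_smul, h1.map_eq]

lemma W2_le {a : ℝ} (ha0 : 0 < a) :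
    W2 ((unif (box n (-1) 1 (-1) 1)).map (TT a a)) ((unif (box n (-1) 1 (-1) 1)).map (TT a (-a)))
      ≤ √(8 * a ^ 3) := by
  have := unif_prob (cube_ne (n := n)) cube_fin
  have hr : Measurable (refl1 (n := n)) := refl1.continuous.measurable
  have hm : Measurable fun x : EE n => (TT a a x, TT a (-a) (refl1 x)) :=
    (TT_meas a a).prodMk ((TT_meas a (-a)).comp hr)
  refine (csInf_le (W2_bdd _ _) ⟨(unif (box n (-1) 1 (-1) 1)).map
    fun x => (TT a a x, TT a (-a) (refl1 x)), ⟨Measure.isProbabilityMeasure_map hm.aemeasurable,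
      ?_, ?_⟩, rfl⟩).trans (Real.sqrt_le_sqrt ?_)
  · rw [Measure.map_map measurable_fst hm]; rfl
  · rw [Measure.map_map measurable_snd hm]
    conv_rhs => rw [← refl1_map, Measure.map_map (TT_meas a (-a)) hr]
    rfl
  rw [integral_map hm.aemeasurable (by fun_prop), int_unif,
    vol_box' (by norm_num) (by norm_num), inv_mul_le_iff₀ (by positivity)]
  have k : ∫ x in box n (-1) 1 (-1) 1, ‖TT a a x - TT a (-a) (refl1 x)‖ ^ 2
      ≤ ∫ x, (box n (-(2 * a)) (2 * a) (-1) 1).indicator (fun _ => 4 * a ^ 2) x := by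
    rw [← integral_indicator box_meas]
    refine integral_mono_of_nonneg (Filter.Eventually.of_forall fun x =>
      indicator_nonneg (fun _ _ => sq_nonneg _) _) ((integrableOn_const (by
        rw [vol_box]; finiteness)).integrable_indicator box_meas)
      (Filter.Eventually.of_forall fun x => ?_)
    by_cases hx : x ∈ box n (-1) 1 (-1) 1
    · rw [indicator_of_mem hx]
      simp only [TT, refl1_0, refl1_1, mul_neg, neg_mul, neg_neg]
      split_ifs with c1 c2
      · obtain ⟨⟨a1, a2, a3⟩, a4, a5, a6⟩ := mem_box.1 hx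
        have := abs_le.1 c1
        rw [indicator_of_mem (mem_box.2 ⟨⟨by nlinarith, a2, a3⟩, by nlinarith, a5, a6⟩),
          ← PiLp.single_sub]
        simp only [PiLp.norm_single, Real.norm_eq_abs, sq_abs]
        linarith
      · simpa using indicator_nonneg (fun _ _ => by positivity) _
      · simpa using indicator_nonneg (fun _ _ => by positivity) _
    · rw [indicator_of_notMem hx]
      exact indicator_nonneg (fun _ _ => by positivity) _
  refine k.trans (le_of_eq ?_)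
  rw [integral_indicator_const _ box_meas, vol_box' (by linarith) (by norm_num), smul_eq_mul]
  ring

lemma diff_ge {a : ℝ} (ha0 : 0 < a) (ha1 : a ≤ 1 / 2) :
    3 * a / 32 ≤ ∫ x, ‖TT a a x - TT a (-a) x‖ ^ 2 ∂unif (box n (-1) 1 (-1) 1) := by
  rw [int_unif, vol_box' (by norm_num) (by norm_num), le_inv_mul_iff₀ (by positivity)]
  have : IsFiniteMeasure (volume.restrict (box n (-1) 1 (-1) 1)) :=
    ⟨by simpa using cube_body.1.measure_lt_top⟩
  have hi : IntegrableOn (fun x => ‖TT a a x - TT a (-a) x‖ ^ 2) (box n (-1) 1 (-1) 1) volume := by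
    have m1 := TT_meas (n := n) a a
    have m2 := TT_meas (n := n) a (-a)
    refine Integrable.of_bound (Measurable.aestronglyMeasurable (by fun_prop)) ((1 + 1) ^ 2)
      (Filter.Eventually.of_forall fun x => ?_)
    rw [Real.norm_of_nonneg (sq_nonneg _)]
    exact pow_le_pow_left₀ (norm_nonneg _) ((norm_sub_le _ _).trans (add_le_add
      (TT_norm a (by rw [abs_of_pos ha0]; linarith) (TT_mem a a x))
      (TT_norm a (by rw [abs_neg, abs_of_pos ha0]; linarith) (TT_mem a (-a) x)))) 2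
  have hsub : box n (3 * a / 4) (3 * a / 2) (1 / 2) 1 ⊆ box n (-1) 1 (-1) 1 := by
    intro x hx
    obtain ⟨⟨a1, a2, a3⟩, a4, a5, a6⟩ := mem_box.1 hx
    exact mem_box.2 ⟨⟨by linarith, by linarith, a3⟩, by linarith, a5, a6⟩
  refine le_trans ?_ (setIntegral_mono_set hi (Filter.Eventually.of_forall fun x => sq_nonneg _)
    (HasSubset.Subset.eventuallyLE hsub))
  refine le_trans (le_of_eq ?_) (setIntegral_ge_of_const_le_real (c := 1) box_meas
    (by rw [vol_box]; finiteness) (fun x hx => ?_) (hi.mono_set hsub))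
  · rw [vol_box' (by linarith) (by norm_num)]; ring
  obtain ⟨⟨a1, a2, a3⟩, a4, a5, a6⟩ := mem_box.1 hx
  have x0 : 0 ≤ x 0 := by linarith
  have c1 : |x 0| ≤ a + a * x 1 := by rw [abs_of_nonneg x0]; nlinarith
  have c2 : ¬ |x 0| ≤ a + -a * x 1 := by rw [abs_of_nonneg x0]; nlinarith
  simp only [TT, c1, c2, x0, if_true, if_false]
  have := PiLp.norm_apply_le
    (EuclideanSpace.single 1 a - EuclideanSpace.single 0 1 : EE n) 0
  exact one_le_pow₀ (by simpa using this)

theorem lower {α : ℝ} (h : Admissible (EE n) α) : α ≤ 1 / 3 := by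
  by_contra hα
  push Not at hα
  obtain ⟨C, hC⟩ := h.2 _ _ cube_body (isCompact_closedBall 0 1) ⟨0, by simp⟩
  have key : ∀ a : ℝ, 0 < a → a ≤ 1 / 2 → 3 / 32 ≤ C ^ 2 * 8 ^ α * a ^ (3 * α - 1) := by
    intro a ha0 ha1
    obtain ⟨p1, p2⟩ := TT_ot (n := n) a (s := a) (by rw [abs_of_pos ha0]; linarith)
    obtain ⟨p3, p4⟩ := TT_ot (n := n) a (s := -a) (by rw [abs_neg, abs_of_pos ha0]; linarith)
    have k1 := (Real.sqrt_le_sqrt (diff_ge ha0 ha1)).trans (hC _ _ _ _ p1 p3 p2 p4)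
    have k2 := Real.rpow_le_rpow (W2_nonneg _ _) (W2_le (n := n) ha0) h.1.1.le
    have k3 : √(3 * a / 32) ≤ |C| * √(8 * a ^ 3) ^ α :=
      k1.trans (mul_le_mul (le_abs_self C) k2 (Real.rpow_nonneg (W2_nonneg _ _) _) (abs_nonneg _))
    have k4 := pow_le_pow_left₀ (Real.sqrt_nonneg _) k3 2
    rw [Real.sq_sqrt (by positivity), mul_pow, sq_abs, ← Real.rpow_natCast (√_ ^ α),
      ← Real.rpow_mul (Real.sqrt_nonneg _), mul_comm α, Real.rpow_mul (Real.sqrt_nonneg _),
      Real.rpow_natCast, Real.sq_sqrt (by positivity), Real.mul_rpow (by norm_num) (by positivity),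
      ← Real.rpow_natCast a, ← Real.rpow_mul ha0.le] at k4
    rw [Real.rpow_sub_one ha0.ne', ← mul_div_assoc, le_div_iff₀ ha0]
    push_cast at k4
    linarith
  have ht : Filter.Tendsto (fun a : ℝ => C ^ 2 * 8 ^ α * a ^ (3 * α - 1))
      (nhdsWithin 0 (Ioi 0)) (nhds 0) := by
    have h1 : ContinuousAt (fun a : ℝ => a ^ (3 * α - 1)) 0 :=
      Real.continuousAt_rpow_const _ _ (Or.inr (by linarith))
    have h2 := (h1.tendsto.const_mul (C ^ 2 * 8 ^ α)).mono_left (nhdsWithin_le_nhds (s := Ioi 0))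
    rwa [Real.zero_rpow (by linarith), mul_zero] at h2
  have := ge_of_tendsto ht (by
    filter_upwards [Ioc_mem_nhdsGT (show (0 : ℝ) < 1 / 2 by norm_num)] with a ha
    exact key a ha.1 ha.2)
  norm_num at this

end

end Vale.Agent.P074
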