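import Vale.Agent.P074.Dual

open MeasureTheory Set
open scoped ENNReal NNReal InnerProductSpace

namespace Vale.Agent.P074

lemma riemann {A B a b : ℝ → ℝ} {L : ℝ}
    (hA : ∀ s ∈ Icc (0 : ℝ) 1, ∀ t ∈ Icc (0 : ℝ) 1, A t + (s - t) * a t ≤ A s)
    (hB : ∀ s ∈ Icc (0 : ℝ) 1, ∀ t ∈ Icc (0 : ℝ) 1, B t + (s - t) * b t ≤ B s)
    (h : ∀ t ∈ Icc (0 : ℝ) 1, a t - b t ≤ L) : (A 1 - B 1) - (A 0 - B 0) ≤ L := by
  refine le_of_forall_small (D := a 1 - a 0) fun n => ?_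
  have hn : (0 : ℝ) < (n : ℝ) + 1 := by positivity
  set t : ℕ → ℝ := fun k => k / ((n : ℝ) + 1) with ht
  have hmem : ∀ k ≤ n + 1, t k ∈ Icc (0 : ℝ) 1 := by
    intro k hk
    have : (k : ℝ) ≤ n + 1 := by exact_mod_cast hk
    exact ⟨by positivity, (div_le_one hn).2 this⟩
  have step : ∀ k ∈ Finset.range (n + 1), (A (t (k + 1)) - B (t (k + 1))) - (A (t k) - B (t k))
      ≤ L / ((n : ℝ) + 1) + (a (t (k + 1)) - a (t k)) / ((n : ℝ) + 1) := by
    intro k hk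
    have hk := Finset.mem_range.1 hk
    have k1 := hA _ (hmem k hk.le) _ (hmem (k + 1) hk)
    have k2 := hB _ (hmem (k + 1) hk) _ (hmem k hk.le)
    have k3 := div_le_div_of_nonneg_right (h _ (hmem k hk.le)) hn.le
    have e1 : t k - t (k + 1) = -(1 / ((n : ℝ) + 1)) := by simp only [ht]; push_cast; ring
    have e2 : t (k + 1) - t k = 1 / ((n : ℝ) + 1) := by linarith
    rw [e1] at k1; rw [e2] at k2
    simp only [div_eq_mul_inv] at *
    linarith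
  have := Finset.sum_le_sum step
  rw [Finset.sum_range_sub (fun k => A (t k) - B (t k)), Finset.sum_add_distrib, ← Finset.sum_div,
    ← Finset.sum_div, Finset.sum_range_sub (fun k => a (t k))] at this
  have e0 : t 0 = 0 := by simp [ht]
  have e1 : t (n + 1) = 1 := by simp only [ht]; push_cast; field_simp
  rw [e0, e1] at this
  simp only [Finset.sum_const, Finset.card_range, nsmul_eq_mul] at this
  push_cast at this
  rwa [mul_div_cancel_left₀ _ hn.ne'] at this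

variable {E : Type} [NormedAddCommGroup E] [InnerProductSpace ℝ E] [FiniteDimensional ℝ E]
  [MeasurableSpace E] [BorelSpace E] {ι : Type} [Fintype ι] [Nonempty ι]

lemma JJ_ge {K : Set E} (hK : IsCompact K) {y : ι → E} (hy : Function.Injective y) {ψ m : ι → ℝ}
    (hm : mass K y ψ = m) (y' : ι → E) (ψ' : ι → ℝ) :
    ∑ i, ⟪y' i, mom K y ψ i⟫_ℝ ≤ JJ K y' m ψ' := by
  have := FF_ge hK hy ψ y' ψ'
  simp only [Finset.sum_sub_distrib, hm, mul_comm (ψ' _)] at this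
  unfold JJ; linarith

lemma JJ_eq {K : Set E} (hK : IsCompact K) {y : ι → E} (hy : Function.Injective y) {ψ m : ι → ℝ}
    (hm : mass K y ψ = m) : JJ K y m ψ = ∑ i, ⟪y i, mom K y ψ i⟫_ℝ := by
  have := FF_eq hK hy ψ
  simp only [Finset.sum_sub_distrib, hm, mul_comm (ψ _)] at this
  unfold JJ; linarith

omit [Nonempty ι] in
lemma mom_norm {K : Set E} (hK : IsCompact K) {R : ℝ} (hKR : K ⊆ Metric.closedBall 0 R)
    (y : ι → E) (ψ : ι → ℝ) (i : ι) : ‖mom K y ψ i‖ ≤ R * mass K y ψ i :=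
  norm_setIntegral_le_of_norm_le_const
    ((measure_mono (cell_sub _ _ _ _)).trans_lt hK.measure_lt_top)
    fun x hx => by simpa using hKR hx.1

lemma deriv_gap {K : Set E} (hK : IsCompact K) (hKc : Convex ℝ K) {R : ℝ} (hR : 0 ≤ R)
    (hKR : K ⊆ Metric.closedBall 0 R) {y : ι → E} (hy : Function.Injective y) {ψ ψ' m w : ι → ℝ}
    (hm : ∀ i, 0 < m i) (hw : ∀ i, |w i| ≤ 1 / 2) (h1 : mass K y ψ = m)
    (h2 : mass K y ψ' = fun i => m i * (1 - w i)) (v : ι → E) :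
    ∑ i, ⟪v i, mom K y ψ i⟫_ℝ - ∑ i, ⟪v i, mom K y ψ' i⟫_ℝ ≤
      √((∑ i, m i * ‖v i‖ ^ 2) * (40 * Module.finrank ℝ E * R ^ 2 * ∑ i, m i * w i ^ 2))
        + R * ∑ i, m i * |w i| * ‖v i‖ := by
  have hw1 : ∀ i, 1 / 2 ≤ 1 - w i := fun i => by linarith [(abs_le.1 (hw i)).2]
  have hm' : ∀ i, 0 < m i * (1 - w i) := fun i => mul_pos (hm i) (by linarith [hw1 i])
  set p : ι → ℝ := fun i => √(m i) with hp
  set r : ι → ℝ := fun i => √(1 - w i) with hr
  have p2 : ∀ i, p i ^ 2 = m i := fun i => Real.sq_sqrt (hm i).le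
  have r2 : ∀ i, r i ^ 2 = 1 - w i := fun i => Real.sq_sqrt (by linarith [hw1 i])
  have pp : ∀ i, 0 < p i := fun i => Real.sqrt_pos.2 (hm i)
  have rp : ∀ i, 1 / 2 ≤ r i := fun i => Real.le_sqrt_of_sq_le (by linarith [hw1 i])
  have q2 : ∀ i, (p i * r i) ^ 2 = m i * (1 - w i) := fun i => by rw [mul_pow, p2, r2]
  have hb := bary hK.measurableSet hKc hR hKR hy ψ ψ' pp (q := fun i => p i * r i)
    (fun i => mul_pos (pp i) (by linarith [rp i])) (fun i => by rw [h1, p2])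
    (fun i => by rw [h2, q2])
  simp only [p2, q2] at hb
  set z : ι → E := fun i => (m i)⁻¹ • mom K y ψ i - (m i * (1 - w i))⁻¹ • mom K y ψ' i with hz
  have hZ : ∑ i, m i * ‖z i‖ ^ 2 ≤ 40 * Module.finrank ℝ E * R ^ 2 * ∑ i, m i * w i ^ 2 := by
    have k1 : ∑ i, m i * ‖z i‖ ^ 2 ≤ 2 * ∑ i, p i * (p i * r i) * ‖z i‖ ^ 2 := by
      rw [Finset.mul_sum]
      refine Finset.sum_le_sum fun i _ => ?_
      have e : 2 * (p i * (p i * r i) * ‖z i‖ ^ 2) = (m i * ‖z i‖ ^ 2) * (2 * r i) := by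
        rw [← p2]; ring
      rw [e]
      exact le_mul_of_one_le_right (mul_nonneg (hm i).le (sq_nonneg _)) (by linarith [rp i])
    have k2 : ∑ i, (p i - p i * r i) ^ 2 ≤ ∑ i, m i * w i ^ 2 := by
      refine Finset.sum_le_sum fun i _ => ?_
      have e : (p i - p i * r i) ^ 2 = m i * (1 - r i) ^ 2 := by rw [← p2]; ring
      rw [e]
      refine mul_le_mul_of_nonneg_left ?_ (hm i).le
      have e2 : w i = (1 - r i) * (1 + r i) := by linarith [r2 i]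
      rw [e2, mul_pow]
      exact le_mul_of_one_le_right (sq_nonneg _) (one_le_pow₀ (by linarith [rp i]))
    have k3 := mul_le_mul_of_nonneg_left k2
      (show 0 ≤ 20 * (Module.finrank ℝ E : ℝ) * R ^ 2 by positivity)
    linarith
  have hX : ∑ i, m i * (‖v i‖ * ‖z i‖) ≤
      √((∑ i, m i * ‖v i‖ ^ 2) * (40 * Module.finrank ℝ E * R ^ 2 * ∑ i, m i * w i ^ 2)) := by
    refine Real.le_sqrt_of_sq_le ?_
    have := Finset.sum_mul_sq_le_sq_mul_sq Finset.univ (fun i => p i * ‖v i‖) (fun i => p i * ‖z i‖)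
    simp only [mul_pow, p2] at this
    have e : ∀ i, p i * ‖v i‖ * (p i * ‖z i‖) = m i * (‖v i‖ * ‖z i‖) := fun i => by
      rw [← p2]; ring
    simp only [e] at this
    exact this.trans (mul_le_mul_of_nonneg_left hZ
      (Finset.sum_nonneg fun i _ => mul_nonneg (hm i).le (sq_nonneg _)))
  refine le_trans ?_ (add_le_add hX le_rfl)
  rw [← Finset.sum_sub_distrib, Finset.mul_sum, ← Finset.sum_add_distrib]
  refine Finset.sum_le_sum fun i _ => ?_
  have e : mom K y ψ i - mom K y ψ' i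
      = m i • z i + (w i / (1 - w i)) • mom K y ψ' i := by
    have a1 := (hm i).ne'
    have a2 : 1 - w i ≠ 0 := by linarith [hw1 i]
    simp only [hz, smul_sub, smul_smul, mul_inv_cancel₀ a1, one_smul]
    have : m i * (m i * (1 - w i))⁻¹ = 1 + w i / (1 - w i) := by field_simp; ring
    rw [this, add_smul, one_smul]; abel
  rw [← inner_sub_right, e, inner_add_right, inner_smul_right]
  refine add_le_add (mul_le_mul_of_nonneg_left (real_inner_le_norm _ _) (hm i).le) ?_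
  refine (real_inner_le_norm _ _).trans ?_
  have k := mom_norm hK hKR y ψ' i
  rw [h2] at k
  have a2 : 0 < 1 - w i := by linarith [hw1 i]
  rw [norm_smul, Real.norm_eq_abs, abs_div, abs_of_pos a2]
  calc ‖v i‖ * (|w i| / (1 - w i) * ‖mom K y ψ' i‖)
      ≤ ‖v i‖ * (|w i| / (1 - w i) * (R * (m i * (1 - w i)))) := by gcongr
    _ = R * (m i * |w i| * ‖v i‖) := by field_simp

lemma mixed {K : Set E} (hK : IsCompact K) (hKc : Convex ℝ K) {R : ℝ} (hR : 0 ≤ R)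
    (hKR : K ⊆ Metric.closedBall 0 R) {y v : ι → E}
    (hy : ∀ t ∈ Icc (0 : ℝ) 1, Function.Injective fun i => y i + t • v i) {ψ0 ψ1 m w : ι → ℝ}
    (hm : ∀ i, 0 < m i) (hs : ∑ i, m i = volume.real K) (hw : ∀ i, |w i| ≤ 1 / 2)
    (h1 : mass K (fun i => y i + v i) ψ1 = m)
    (h0 : mass K y ψ0 = fun i => m i * (1 - w i)) :
    ∑ i, m i * w i * (ψ1 i - ψ0 i) ≤
      √((∑ i, m i * ‖v i‖ ^ 2) * (40 * Module.finrank ℝ E * R ^ 2 * ∑ i, m i * w i ^ 2))
        + R * ∑ i, m i * |w i| * ‖v i‖ := by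
  have hy0 : Function.Injective y := by simpa using hy 0 ⟨le_rfl, zero_le_one⟩
  have hy1 : Function.Injective fun i => y i + v i := by simpa using hy 1 ⟨zero_le_one, le_rfl⟩
  set m' : ι → ℝ := fun i => m i * (1 - w i) with hm'
  have hm'p : ∀ i, 0 < m' i := fun i => mul_pos (hm i) (by linarith [(abs_le.1 (hw i)).2])
  have hs' : ∑ i, m' i = volume.real K := by rw [← h0]; exact sum_mass hK hy0 _
  set Y : ℝ → ι → E := fun t i => y i + t • v i with hY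
  have ex : ∀ μ : ι → ℝ, (∀ i, 0 < μ i) → ∑ i, μ i = volume.real K →
      ∃ P : ℝ → ι → ℝ, ∀ t ∈ Icc (0 : ℝ) 1, mass K (Y t) (P t) = μ := by
    intro μ h1 h2
    have : ∀ t : ℝ, ∃ ψ : ι → ℝ, t ∈ Icc (0 : ℝ) 1 → mass K (Y t) ψ = μ := by
      intro t
      by_cases ht : t ∈ Icc (0 : ℝ) 1
      · obtain ⟨ψ, h⟩ := exists_mass hK (hy t ht) h1 h2
        exact ⟨ψ, fun _ => h⟩
      · exact ⟨0, fun h => absurd h ht⟩
    choose P hP using this
    exact ⟨P, hP⟩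
  obtain ⟨P, hP⟩ := ex m hm hs
  obtain ⟨Q, hQ⟩ := ex m' hm'p hs'
  have sub : ∀ (μ : ι → ℝ) (P : ℝ → ι → ℝ), (∀ t ∈ Icc (0 : ℝ) 1, mass K (Y t) (P t) = μ) →
      ∀ s ∈ Icc (0 : ℝ) 1, ∀ t ∈ Icc (0 : ℝ) 1, JJ K (Y t) μ (P t)
        + (s - t) * ∑ i, ⟪v i, mom K (Y t) (P t) i⟫_ℝ ≤ JJ K (Y s) μ (P s) := by
    intro μ P hP s _ t ht
    refine le_trans (le_of_eq ?_) (JJ_ge hK (hy t ht) (hP t ht) (Y s) (P s))
    rw [JJ_eq hK (hy t ht) (hP t ht), Finset.mul_sum, ← Finset.sum_add_distrib]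
    refine Finset.sum_congr rfl fun i _ => ?_
    simp only [hY, inner_add_left, inner_smul_left, conj_trivial]; ring
  have key := riemann (sub m P hP) (sub m' Q hQ) fun t ht =>
    deriv_gap hK hKc hR hKR (hy t ht) hm hw (hP t ht) (hQ t ht) v
  refine le_trans ?_ key
  have e0 : Y 0 = y := by funext i; simp [hY]
  have e1 : Y 1 = fun i => y i + v i := by funext i; simp [hY]
  have i0 : (0 : ℝ) ∈ Icc (0 : ℝ) 1 := ⟨le_rfl, zero_le_one⟩
  have i1 : (1 : ℝ) ∈ Icc (0 : ℝ) 1 := ⟨zero_le_one, le_rfl⟩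
  have a1 := JJ_ge hK (hy 0 i0) (hP 0 i0) (Y 0) ψ0
  rw [← JJ_eq hK (hy 0 i0) (hP 0 i0)] at a1
  have a2 := JJ_ge hK hy0 h0 y (Q 0)
  rw [← JJ_eq hK hy0 h0] at a2
  have a3 := JJ_ge hK (hy 1 i1) (hQ 1 i1) (Y 1) ψ1
  rw [← JJ_eq hK (hy 1 i1) (hQ 1 i1)] at a3
  have a4 := JJ_ge hK hy1 h1 (fun i => y i + v i) (P 1)
  rw [← JJ_eq hK hy1 h1] at a4
  change JJ K (Y 0) m (P 0) ≤ _ at a1
  change JJ K (Y 1) m' (Q 1) ≤ _ at a3
  rw [e0] at a1 ⊢
  rw [e1] at a3 ⊢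
  have b1 : JJ K y m ψ0 = JJ K y m' ψ0 + ∑ i, m i * w i * ψ0 i := by
    simp only [JJ, hm', add_assoc, ← Finset.sum_add_distrib]
    congr 1; exact Finset.sum_congr rfl fun i _ => by ring
  have b2 : JJ K (fun i => y i + v i) m ψ1
      = JJ K (fun i => y i + v i) m' ψ1 + ∑ i, m i * w i * ψ1 i := by
    simp only [JJ, hm', add_assoc, ← Finset.sum_add_distrib]
    congr 1; exact Finset.sum_congr rfl fun i _ => by ring
  simp only [mul_sub, Finset.sum_sub_distrib]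
  linarith

lemma eps_step {K : Set E} (hK : IsCompact K) (hKc : Convex ℝ K) {R : ℝ} (hR : 0 ≤ R)
    (hKR : K ⊆ Metric.closedBall 0 R) {y v : ι → E}
    (hy : ∀ t ∈ Icc (0 : ℝ) 1, Function.Injective fun i => y i + t • v i) {ψ0 ψ1 m : ι → ℝ}
    (hm : ∀ i, 0 < m i) (hs : ∑ i, m i = volume.real K) {ε : ℝ} (hε : 0 < ε)
    (hw : ∀ i, |ε * (ψ1 i - ψ0 i)| ≤ 1 / 2)
    (h1 : mass K (fun i => y i + v i) ψ1 = m)
    (h0 : mass K y ψ0 = fun i => m i * (1 - ε * (ψ1 i - ψ0 i))) :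
    ∑ i, m i * (ψ1 i - ψ0 i) ^ 2 ≤
      (80 * Module.finrank ℝ E + 2) * R ^ 2 * ∑ i, m i * ‖v i‖ ^ 2 := by
  have k := mixed hK hKc hR hKR hy hm hs hw h1 h0
  set U := ∑ i, m i * (ψ1 i - ψ0 i) ^ 2 with hU
  set V := ∑ i, m i * ‖v i‖ ^ 2 with hV
  set Y := ∑ i, m i * |ψ1 i - ψ0 i| * ‖v i‖ with hY
  have e1 : ∑ i, m i * (ε * (ψ1 i - ψ0 i)) * (ψ1 i - ψ0 i) = ε * U := by
    rw [hU, Finset.mul_sum]; exact Finset.sum_congr rfl fun i _ => by ring
  have e2 : ∑ i, m i * (ε * (ψ1 i - ψ0 i)) ^ 2 = ε ^ 2 * U := by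
    rw [hU, Finset.mul_sum]; exact Finset.sum_congr rfl fun i _ => by ring
  have e3 : ∑ i, m i * |ε * (ψ1 i - ψ0 i)| * ‖v i‖ = ε * Y := by
    rw [hY, Finset.mul_sum]
    exact Finset.sum_congr rfl fun i _ => by rw [abs_mul, abs_of_pos hε]; ring
  rw [e1, e2, e3] at k
  have hU0 : 0 ≤ U := Finset.sum_nonneg fun i _ => mul_nonneg (hm i).le (sq_nonneg _)
  have hV0 : 0 ≤ V := Finset.sum_nonneg fun i _ => mul_nonneg (hm i).le (sq_nonneg _)
  have hYY : Y ^ 2 ≤ U * V := by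
    have := Finset.sum_mul_sq_le_sq_mul_sq Finset.univ (fun i => √(m i) * |ψ1 i - ψ0 i|)
      (fun i => √(m i) * ‖v i‖)
    have p2 : ∀ i, √(m i) ^ 2 = m i := fun i => Real.sq_sqrt (hm i).le
    simp only [mul_pow, p2, sq_abs] at this
    have e : ∀ i, √(m i) * |ψ1 i - ψ0 i| * (√(m i) * ‖v i‖) = m i * |ψ1 i - ψ0 i| * ‖v i‖ :=
      fun i => by nth_rewrite 3 [← p2 i]; ring
    simp only [e] at this
    exact this
  set d : ℝ := (Module.finrank ℝ E : ℝ) with hd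
  have hd0 : 0 ≤ d := by positivity
  set X := √(V * (40 * d * R ^ 2 * (ε ^ 2 * U))) with hX
  have hX2 : X ^ 2 = V * (40 * d * R ^ 2 * (ε ^ 2 * U)) := Real.sq_sqrt (by positivity)
  have k1 : (ε * U) ^ 2 ≤ (X + R * (ε * Y)) ^ 2 := pow_le_pow_left₀ (by positivity) k 2
  have k2 : (X + R * (ε * Y)) ^ 2 ≤ 2 * X ^ 2 + 2 * (R ^ 2 * ε ^ 2) * Y ^ 2 := by
    nlinarith [sq_nonneg (X - R * (ε * Y))]
  have k3 := mul_le_mul_of_nonneg_left hYY (show 0 ≤ 2 * (R ^ 2 * ε ^ 2) by positivity)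
  rcases hU0.eq_or_lt with h | h
  · rw [← h]; positivity
  have k4 : (ε ^ 2 * U) * U ≤ (ε ^ 2 * U) * ((80 * d + 2) * R ^ 2 * V) := by
    rw [hX2] at k2; nlinarith
  exact le_of_mul_le_mul_left k4 (by positivity)

theorem discrete {K : Set E} (hK : IsCompact K) (hKc : Convex ℝ K) {R : ℝ} (hR : 0 ≤ R)
    (hKR : K ⊆ Metric.closedBall 0 R) {y v : ι → E}
    (hy : ∀ t ∈ Icc (0 : ℝ) 1, Function.Injective fun i => y i + t • v i) {m : ι → ℝ}
    (hm : ∀ i, 0 < m i) (hs : ∑ i, m i = volume.real K) :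
    ∃ ψ0 ψ1 : ι → ℝ, mass K y ψ0 = m ∧ mass K (fun i => y i + v i) ψ1 = m ∧
      ∑ i, m i * (ψ1 i - ψ0 i) ^ 2 ≤
        (80 * Module.finrank ℝ E + 2) * R ^ 2 * ∑ i, m i * ‖v i‖ ^ 2 := by
  have hy0 : Function.Injective y := by simpa using hy 0 ⟨le_rfl, zero_le_one⟩
  have hy1 : Function.Injective fun i => y i + v i := by simpa using hy 1 ⟨zero_le_one, le_rfl⟩
  obtain ⟨ψ1, h1⟩ := exists_mass hK hy1 hm hs
  obtain ⟨χ0, hχ0⟩ := exists_min hK y hm hs
  set C := (80 * Module.finrank ℝ E + 2) * R ^ 2 * ∑ i, m i * ‖v i‖ ^ 2 with hC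
  set N : (ι → ℝ) → ℝ := fun ψ => ∑ i, m i * (ψ1 i - ψ i) ^ 2 with hN
  have hNc : Continuous N := by fun_prop
  have hN0 : ∀ ψ, 0 ≤ N ψ := fun ψ =>
    Finset.sum_nonneg fun i _ => mul_nonneg (hm i).le (sq_nonneg _)
  have hNi : ∀ ψ i, m i * (ψ1 i - ψ i) ^ 2 ≤ N ψ := fun ψ i =>
    Finset.single_le_sum (f := fun i => m i * (ψ1 i - ψ i) ^ 2)
      (fun i _ => mul_nonneg (hm i).le (sq_nonneg _)) (Finset.mem_univ i)
  have hbd : ∀ c : ℝ, Bornology.IsBounded {ψ | N ψ ≤ c} := by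
    intro c
    refine (Metric.isBounded_closedBall (x := ψ1) (r := ∑ i, √(c / m i))).subset fun ψ hψ => ?_
    rw [Metric.mem_closedBall, dist_pi_le_iff (Finset.sum_nonneg fun i _ => Real.sqrt_nonneg _)]
    intro i
    refine le_trans ?_ (Finset.single_le_sum (f := fun i => √(c / m i))
      (fun i _ => Real.sqrt_nonneg _) (Finset.mem_univ i))
    rw [Real.dist_eq]
    refine Real.abs_le_sqrt ?_
    rw [le_div_iff₀ (hm i)]
    have := (hNi ψ i).trans hψ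
    nlinarith
  set g := JJ K y m ψ1 - JJ K y m χ0 with hg
  have hg0 : 0 ≤ g := sub_nonneg.2 (hχ0 _)
  have heps : ∀ ε : ℝ, 0 < ε → (∀ i, 8 * g * ε ≤ m i) →
      ∃ ψ, N ψ ≤ C ∧ ∀ χ, JJ K y m ψ ≤ JJ K y m χ + ε / 2 * N χ := by
    intro ε hε hsm
    have hc : Continuous fun ψ => JJ K y m ψ + ε / 2 * N ψ :=
      (JJ_cont hK y m).add (continuous_const.mul hNc)
    have hN1 : N ψ1 = 0 := by simp [hN]
    obtain ⟨ψ, hψ⟩ := hc.exists_forall_le_of_isBounded ψ1 (by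
      refine (hbd (2 * g / ε)).subset fun ψ hψ => ?_
      simp only [mem_setOf_eq, hN1] at hψ ⊢
      rw [le_div_iff₀ hε]
      linarith [hχ0 ψ])
    refine ⟨ψ, ?_, fun χ => ?_⟩
    · refine eps_step hK hKc hR hKR hy hm hs hε (fun i => ?_) h1 ?_
      · have k1 := hψ ψ1
        rw [hN1] at k1
        have k2 : ε * N ψ ≤ 2 * g := by linarith [hχ0 ψ]
        have k3 := mul_le_mul_of_nonneg_left (hNi ψ i) hε.le
        refine abs_le_of_sq_le_sq' ?_ (by norm_num) |> abs_le.2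
        have k4 : m i * (ε * (ψ1 i - ψ i)) ^ 2 ≤ m i * (1 / 2) ^ 2 := by
          have := mul_le_mul_of_nonneg_left (k3.trans k2) hε.le
          nlinarith [hsm i]
        exact le_of_mul_le_mul_left k4 (hm i)
      · refine foc hK hy0 (D := ε / 2 * ∑ i, m i) fun δ => ?_
        have k1 := hψ fun i => ψ i + δ i
        have e1 : N (fun i => ψ i + δ i)
            = N ψ - 2 * ∑ i, m i * (ψ1 i - ψ i) * δ i + ∑ i, m i * δ i ^ 2 := by
          simp only [hN, Finset.mul_sum, ← Finset.sum_sub_distrib, ← Finset.sum_add_distrib]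
          exact Finset.sum_congr rfl fun i _ => by ring
        have e2 : ∑ i, m i * (1 - ε * (ψ1 i - ψ i)) * δ i
            = ∑ i, m i * δ i - ε * ∑ i, m i * (ψ1 i - ψ i) * δ i := by
          simp only [Finset.mul_sum, ← Finset.sum_sub_distrib]
          exact Finset.sum_congr rfl fun i _ => by ring
        have e3 : ∑ i, m i * δ i ^ 2 ≤ (∑ i, m i) * ∑ i, δ i ^ 2 := by
          rw [Finset.mul_sum]
          refine Finset.sum_le_sum fun i _ => mul_le_mul_of_nonneg_right ?_ (sq_nonneg _)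
          exact Finset.single_le_sum (fun i _ => (hm i).le) (Finset.mem_univ i)
        have e4 := mul_le_mul_of_nonneg_left e3 (show 0 ≤ ε / 2 by positivity)
        rw [e1] at k1
        simp only [JJ, mul_add, Finset.sum_add_distrib] at k1
        rw [e2]
        linarith
    · have := hψ χ
      have := mul_nonneg (show 0 ≤ ε / 2 by positivity) (hN0 ψ)
      linarith
  have hcomp : IsCompact {ψ | N ψ ≤ C} :=
    Metric.isCompact_of_isClosed_isBounded (isClosed_le hNc continuous_const) (hbd C)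
  obtain ⟨i0, hi0⟩ := Finite.exists_min m
  have hsmall : ∀ n : ℕ, ∀ i, 8 * g * (m i0 / (8 * g + 1) / ((n : ℝ) + 1)) ≤ m i := by
    intro n i
    refine le_trans ?_ (hi0 i)
    have a1 : m i0 / (8 * g + 1) / ((n : ℝ) + 1) ≤ m i0 / (8 * g + 1) :=
      div_le_self (div_nonneg (hm i0).le (by positivity)) (by linarith [n.cast_nonneg (α := ℝ)])
    refine (mul_le_mul_of_nonneg_left a1 (by positivity)).trans ?_
    rw [mul_div_assoc', div_le_iff₀ (by positivity)]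
    nlinarith [hm i0]
  have hpos : ∀ n : ℕ, 0 < m i0 / (8 * g + 1) / ((n : ℝ) + 1) := fun n => by
    have := hm i0; positivity
  obtain ⟨ψ', hψ', -⟩ := heps _ (hpos 0) (hsmall 0)
  obtain ⟨ψ0, h0, hmin⟩ := hcomp.exists_isMinOn ⟨ψ', hψ'⟩ (JJ_cont hK y m).continuousOn
  refine ⟨ψ0, ψ1, mass_of_min hK hy0 fun χ => ?_, h1, h0⟩
  refine le_of_forall_small (D := m i0 / (8 * g + 1) / 2 * N χ) fun n => ?_
  obtain ⟨ψ, a1, a2⟩ := heps _ (hpos n) (hsmall n)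
  refine (hmin a1).trans ((a2 χ).trans (le_of_eq ?_))
  ring

end Vale.Agent.P074
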