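import Vale.Agent.P074.BM

open MeasureTheory Set
open scoped ENNReal NNReal

namespace Vale.Agent.P074

lemma exists_cuts (α : Measure ℝ) [IsFiniteMeasure α] [NullSingletonClass α] {R : ℝ} (hR : 0 ≤ R)
    (hs : α (Icc (-R) R)ᶜ = 0) (ha : 0 < α.real univ) {N : ℕ} (hN : 0 < N) :
    ∃ τ : ℕ → ℝ, (∀ k, τ k ∈ Icc (-R) R) ∧ (∀ k < N, τ k ≤ τ (k + 1)) ∧
      (∀ k < N, α.real (Ioc (τ k) (τ (k + 1))) = α.real univ / N) ∧
      α (Ioc (τ 0) (τ N))ᶜ = 0 := by
  set F : ℝ → ℝ := fun t => α.real (Iic t) with hF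
  have hmono : Monotone F := fun s t hst => measureReal_mono (Iic_subset_Iic.2 hst)
  have hdiff : ∀ s t, s ≤ t → α.real (Ioc s t) = F t - F s := by
    intro s t hst
    have := measureReal_diff (μ := α) (Iic_subset_Iic.2 hst) measurableSet_Iic
    rw [Iic_sdiff_Iic] at this
    exact this
  have hcont : Continuous F := by
    have h1 : Continuous fun t => ∫ x in (0 : ℝ)..t, (1 : ℝ) ∂α :=
      intervalIntegral.continuous_primitive (fun a b => intervalIntegrable_const) 0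
    have h2 : F = fun t => F 0 + ∫ x in (0 : ℝ)..t, (1 : ℝ) ∂α := by
      funext t
      rcases le_total 0 t with h | h
      · rw [intervalIntegral.integral_of_le h]; simp [hdiff _ _ h]
      · rw [intervalIntegral.integral_of_ge h]; simp [hdiff _ _ h]
    rw [h2]; exact continuous_const.add h1
  have hF0 : F (-R) = 0 := by
    have : α (Iic (-R)) = 0 := by
      rw [measure_congr Iio_ae_eq_Iic.symm]
      exact measure_mono_null (t := (Icc (-R) R)ᶜ)
        (fun x hx hx' => absurd (mem_Icc.1 hx').1 (not_le.2 (mem_Iio.1 hx))) hs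
    simp [hF, Measure.real, this]
  have hFR : F R = α.real univ := by
    have h1 : α (Ioi R) = 0 := measure_mono_null (t := (Icc (-R) R)ᶜ)
      (fun x hx hx' => absurd (mem_Icc.1 hx').2 (not_le.2 (mem_Ioi.1 hx))) hs
    have := measureReal_add_measureReal_compl (μ := α) (s := Iic R) measurableSet_Iic
    rw [compl_Iic] at this
    simp only [hF]; rw [← this]; simp [Measure.real, h1]
  have hN' : (0 : ℝ) < N := by exact_mod_cast hN
  have hex : ∀ k : ℕ, ∃ t ∈ Icc (-R) R, k ≤ N → F t = α.real univ * k / N := by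
    intro k
    by_cases hk : k ≤ N
    · have := intermediate_value_Icc (by linarith : -R ≤ R) hcont.continuousOn
      rw [hF0, hFR] at this
      have hk' : (k : ℝ) ≤ N := by exact_mod_cast hk
      obtain ⟨t, ht, ht'⟩ := this (show α.real univ * k / N ∈ Icc 0 (α.real univ) from
        ⟨by positivity, by rw [div_le_iff₀ hN']; nlinarith⟩)
      exact ⟨t, ht, fun _ => ht'⟩
    · exact ⟨R, ⟨by linarith, le_rfl⟩, fun h => absurd h hk⟩
  choose τ hτ hτF using hex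
  have hle : ∀ k < N, τ k ≤ τ (k + 1) := by
    intro k hk
    by_contra hc
    push Not at hc
    have := hmono hc.le
    rw [hτF k hk.le, hτF (k + 1) hk, div_le_div_iff_of_pos_right hN'] at this
    push_cast at this
    nlinarith
  refine ⟨τ, hτ, hle, fun k hk => ?_, ?_⟩
  · rw [hdiff _ _ (hle k hk), hτF k hk.le, hτF (k + 1) hk]
    push_cast; field_simp; ring
  · have h0 : F (τ 0) = 0 := by rw [hτF 0 (Nat.zero_le _)]; simp
    have h1 : F (τ N) = α.real univ := by rw [hτF N le_rfl]; field_simp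
    have h2 : α (Iic (τ 0)) = 0 := by
      simpa [hF, Measure.real, ENNReal.toReal_eq_zero_iff] using h0
    have h3 : α (Ioi (τ N)) = 0 := by
      have := measureReal_add_measureReal_compl (μ := α) (s := Iic (τ N)) measurableSet_Iic
      rw [compl_Iic] at this
      have h4 : α.real (Ioi (τ N)) = 0 := by simp only [hF] at h1; linarith
      simpa [Measure.real, ENNReal.toReal_eq_zero_iff] using h4
    refine measure_mono_null (t := Iic (τ 0) ∪ Ioi (τ N)) ?_ (measure_union_null h2 h3)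
    intro x hx
    by_contra hc
    simp only [mem_union, mem_Iic, mem_Ioi, not_or, not_le, not_lt] at hc
    exact hx hc

lemma mono_upto {τ : ℕ → ℝ} {N : ℕ} (h : ∀ k < N, τ k ≤ τ (k + 1)) : τ 0 ≤ τ N := by
  have : ∀ n ≤ N, τ 0 ≤ τ n := by
    intro n hn
    induction n with
    | zero => exact le_rfl
    | succ n ih => exact (ih (by omega)).trans (h n hn)
  exact this N le_rfl

lemma split_int (α : Measure ℝ) [IsFiniteMeasure α] {τ : ℕ → ℝ} {N : ℕ}
    (h : ∀ k < N, τ k ≤ τ (k + 1)) {g : ℝ → ℝ} (hg : Continuous g) :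
    ∫ x in Ioc (τ 0) (τ N), g x ∂α
      = ∑ k ∈ Finset.range N, ∫ x in Ioc (τ k) (τ (k + 1)), g x ∂α := by
  rw [← intervalIntegral.integral_of_le (mono_upto h),
    ← intervalIntegral.sum_integral_adjacent_intervals fun k _ => hg.intervalIntegrable _ _]
  exact Finset.sum_congr rfl fun k hk =>
    intervalIntegral.integral_of_le (h k (Finset.mem_range.1 hk))

lemma quad (α : Measure ℝ) [IsFiniteMeasure α] {R L a : ℝ} (hL : 0 ≤ L) (ha : 0 ≤ a) {τ : ℕ → ℝ}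
    {N : ℕ} (hτ : ∀ k, τ k ∈ Icc (-R) R) (h : ∀ k < N, τ k ≤ τ (k + 1))
    (hm : ∀ k < N, α.real (Ioc (τ k) (τ (k + 1))) = a) (hs : α (Ioc (τ 0) (τ N))ᶜ = 0)
    {g : ℝ → ℝ} (hg : Continuous g)
    (hl : ∀ x ∈ Icc (-R) R, ∀ y ∈ Icc (-R) R, |g x - g y| ≤ L * |x - y|) :
    |∫ x, g x ∂α - a * ∑ k ∈ Finset.range N, g (τ k)| ≤ a * L * (2 * R) := by
  have e1 : ∫ x, g x ∂α = ∫ x in Ioc (τ 0) (τ N), g x ∂α := by
    rw [Measure.restrict_eq_self_of_ae_mem]; exact hs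
  rw [e1, split_int α h hg, Finset.mul_sum, ← Finset.sum_sub_distrib]
  refine (Finset.abs_sum_le_sum_abs _ _).trans ?_
  have e2 : ∀ k ∈ Finset.range N, |∫ x in Ioc (τ k) (τ (k + 1)), g x ∂α - a * g (τ k)|
      ≤ a * L * (τ (k + 1) - τ k) := by
    intro k hk
    have hk := Finset.mem_range.1 hk
    have e3 : ∫ x in Ioc (τ k) (τ (k + 1)), g x ∂α - a * g (τ k)
        = ∫ x in Ioc (τ k) (τ (k + 1)), (g x - g (τ k)) ∂α := by
      rw [integral_sub (hg.integrableOn_Icc.mono_set Ioc_subset_Icc_self) (integrable_const _)]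
      simp [hm k hk]
    rw [e3, ← Real.norm_eq_abs]
    refine (norm_setIntegral_le_of_norm_le_const (C := L * (τ (k + 1) - τ k))
      (measure_lt_top _ _) ?_).trans (le_of_eq ?_)
    · intro x hx
      have hx' : x ∈ Icc (-R) R := ⟨(hτ k).1.trans hx.1.le, hx.2.trans (hτ _).2⟩
      refine (hl x hx' _ (hτ k)).trans (mul_le_mul_of_nonneg_left ?_ hL)
      rw [abs_of_nonneg (by linarith [hx.1])]; linarith [hx.2]
    · rw [hm k hk]; ring
  refine (Finset.sum_le_sum e2).trans ?_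
  rw [← Finset.mul_sum, Finset.sum_range_sub]
  refine mul_le_mul_of_nonneg_left ?_ (by positivity)
  linarith [(hτ 0).1, (hτ N).2]

lemma ptwise {p q R t s : ℝ} (hp : 0 ≤ p) (hq : 0 ≤ q) (ht : t ∈ Icc (-R) R)
    (hs : s ∈ Icc (-R) R) :
    p * q * (t - s) ^ 2 / 8 - 5 / 2 * R ^ 2 * (p - q) ^ 2 ≤
      p * q * (R ^ 2 - ((t + s) / 2) ^ 2) - (p ^ 2 * (R ^ 2 - t ^ 2) + q ^ 2 * (R ^ 2 - s ^ 2)) / 2 := by
  wlog hpq : p ≤ q generalizing p q t s
  · have := this hq hp hs ht (le_of_not_ge hpq)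
    have e1 : (s - t) ^ 2 = (t - s) ^ 2 := by ring
    have e2 : (q - p) ^ 2 = (p - q) ^ 2 := by ring
    rw [e1, e2, add_comm s t, mul_comm q p] at this
    linarith
  obtain ⟨d, rfl⟩ : ∃ d, q = p + d := ⟨q - p, by ring⟩
  have hd : 0 ≤ d := by linarith
  have h1 : (t + s) ^ 2 ≤ 4 * R ^ 2 := by nlinarith [ht.1, ht.2, hs.1, hs.2]
  have h2 : 0 ≤ p * d * (t - s) ^ 2 := by positivity
  have h3 : d ^ 2 * (t + s) ^ 2 ≤ d ^ 2 * (4 * R ^ 2) := mul_le_mul_of_nonneg_left h1 (sq_nonneg d)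
  have h4 : 0 ≤ d ^ 2 * s ^ 2 := by positivity
  nlinarith [sq_nonneg (p * (t - s) - 2 * d * (t + s))]

lemma kappa_lower (κ : Measure ℝ) [IsFiniteMeasure κ] {R w : ℝ} (hR : 0 ≤ R) (hw : 0 ≤ w)
    (hs : κ (Icc (-R) R)ᶜ = 0) {c : ℕ → ℝ}
    {N : ℕ} (hc : ∀ k, c k ∈ Icc (-R) R) (h : ∀ k < N, c k ≤ c (k + 1))
    (hm : ∀ k < N, w ≤ κ.real (Ioc (c k) (c (k + 1)))) :
    w * ∑ k ∈ Finset.range N, (R ^ 2 - c k ^ 2) - w * (2 * R) * (2 * R)
      ≤ ∫ x, (R ^ 2 - x ^ 2) ∂κ := by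
  have hg : Continuous fun x : ℝ => R ^ 2 - x ^ 2 := by fun_prop
  have hae : ∀ᵐ x ∂κ, x ∈ Icc (-R) R := hs
  have hint : Integrable (fun x : ℝ => R ^ 2 - x ^ 2) κ := by
    rw [← Measure.restrict_eq_self_of_ae_mem hae]
    exact hg.integrableOn_Icc
  have h1 : ∫ x in Ioc (c 0) (c N), (R ^ 2 - x ^ 2) ∂κ ≤ ∫ x, (R ^ 2 - x ^ 2) ∂κ := by
    refine setIntegral_le_integral hint ?_
    filter_upwards [hae] with x hx
    simp only [Pi.zero_apply]
    nlinarith [hx.1, hx.2]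
  refine le_trans ?_ h1
  rw [split_int κ h hg]
  have e2 : ∀ k ∈ Finset.range N, w * (R ^ 2 - c k ^ 2) - w * (2 * R) * (c (k + 1) - c k)
      ≤ ∫ x in Ioc (c k) (c (k + 1)), (R ^ 2 - x ^ 2) ∂κ := by
    intro k hk
    have hk := Finset.mem_range.1 hk
    set m := max 0 (R ^ 2 - c k ^ 2 - 2 * R * (c (k + 1) - c k)) with hm'
    have h2 : m * κ.real (Ioc (c k) (c (k + 1)))
        ≤ ∫ x in Ioc (c k) (c (k + 1)), (R ^ 2 - x ^ 2) ∂κ := by
      refine setIntegral_ge_of_const_le_real measurableSet_Ioc (measure_ne_top _ _) ?_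
        hint.integrableOn
      intro x hx
      have h3 := hx.1; have h4 := hx.2
      have h5 := hc k; have h6 := hc (k + 1)
      refine max_le ?_ ?_
      · nlinarith [h5.1, h6.2]
      · nlinarith [h5.1, h5.2, h6.2]
    refine le_trans ?_ h2
    have h7 : m * w ≤ m * κ.real (Ioc (c k) (c (k + 1))) :=
      mul_le_mul_of_nonneg_left (hm k hk) (le_max_left _ _)
    have h8 : (R ^ 2 - c k ^ 2 - 2 * R * (c (k + 1) - c k)) * w ≤ m * w :=
      mul_le_mul_of_nonneg_right (le_max_right _ _) hw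
    linarith
  refine le_trans ?_ (Finset.sum_le_sum e2)
  rw [Finset.sum_sub_distrib (fun i => w * (R ^ 2 - c i ^ 2)), ← Finset.mul_sum, ← Finset.mul_sum,
    Finset.sum_range_sub]
  have : c N - c 0 ≤ 2 * R := by linarith [(hc 0).1, (hc N).2]
  have := mul_le_mul_of_nonneg_left this (show 0 ≤ w * (2 * R) by positivity)
  linarith

lemma final_alg {p q R n S1 S2 Sc Sd Sm Ia Ib Ik Ja Jb : ℝ} (hp : 0 < p) (hq : 0 < q)
    (hR : 0 ≤ R) (hn : 1 ≤ n)
    (h1 : |Ia - p ^ 2 / n * S1| ≤ p ^ 2 / n * (2 * R) * (2 * R))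
    (h2 : |Ib - q ^ 2 / n * S2| ≤ q ^ 2 / n * (2 * R) * (2 * R))
    (h3 : p * q / n * Sc - p * q / n * (2 * R) * (2 * R) ≤ Ik)
    (h4 : p * q * Sd / 8 - n * (5 / 2 * R ^ 2 * (p - q) ^ 2) ≤ p * q * Sc - (p ^ 2 * S1 + q ^ 2 * S2) / 2)
    (h5 : Sm ^ 2 ≤ n * Sd) (h6 : |Sm| ≤ n * (2 * R))
    (h7 : |Ja / p ^ 2 - Jb / q ^ 2 - Sm / n| ≤ 4 * R / n) :
    p * q * (Ja / p ^ 2 - Jb / q ^ 2) ^ 2 / 8 ≤ Ik - (Ia + Ib) / 2 + 5 / 2 * R ^ 2 * (p - q) ^ 2
      + (8 * p * q * R ^ 2 + 2 * (p ^ 2 + q ^ 2) * R ^ 2) / n := by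
  have hn0 : 0 < n := by linarith
  set D := Ja / p ^ 2 - Jb / q ^ 2
  set m := Sm / n with hm
  have hm1 : |m| ≤ 2 * R := by rw [hm, abs_div, abs_of_pos hn0, div_le_iff₀ hn0]; linarith
  have hm2 : m ^ 2 ≤ Sd / n := by
    rw [hm, div_pow, div_le_div_iff₀ (by positivity) hn0]; nlinarith
  have hD : D ^ 2 ≤ Sd / n + 32 * R ^ 2 / n := by
    have e : D ^ 2 = m ^ 2 + (D - m) * (2 * m + (D - m)) := by ring
    have hr : 4 * R / n ≤ 4 * R := div_le_self (by positivity) hn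
    have h8 : |2 * m + (D - m)| ≤ 8 * R := by
      refine (abs_add_le _ _).trans ?_
      rw [abs_mul, abs_two]; linarith
    have h9 : (D - m) * (2 * m + (D - m)) ≤ 4 * R / n * (8 * R) := by
      refine (le_abs_self _).trans ?_
      rw [abs_mul]
      exact mul_le_mul h7 h8 (abs_nonneg _) (by positivity)
    have e2 : 4 * R / n * (8 * R) = 32 * R ^ 2 / n := by ring
    linarith
  have k1 := (abs_le.1 h1).2
  have k2 := (abs_le.1 h2).2
  have k4 := div_le_div_of_nonneg_right h4 hn0.le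
  have e4 : (p * q * Sd / 8 - n * (5 / 2 * R ^ 2 * (p - q) ^ 2)) / n
      = p * q * (Sd / n) / 8 - 5 / 2 * R ^ 2 * (p - q) ^ 2 := by field_simp
  have e5 : (p * q * Sc - (p ^ 2 * S1 + q ^ 2 * S2) / 2) / n
      = p * q / n * Sc - (p ^ 2 / n * S1 + q ^ 2 / n * S2) / 2 := by field_simp
  rw [e4, e5] at k4
  have k5 := mul_le_mul_of_nonneg_left hD (show 0 ≤ p * q by positivity)
  have e6 : (8 * p * q * R ^ 2 + 2 * (p ^ 2 + q ^ 2) * R ^ 2) / n
      = p * q * (32 * R ^ 2 / n) / 8 + p * q / n * (2 * R) * (2 * R)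
        + (p ^ 2 / n * (2 * R) * (2 * R) + q ^ 2 / n * (2 * R) * (2 * R)) / 2 := by
    field_simp; ring
  rw [e6]
  linarith

lemma one_dim (α β κ : Measure ℝ) [IsFiniteMeasure α] [IsFiniteMeasure β] [IsFiniteMeasure κ]
    [NullSingletonClass α] [NullSingletonClass β] {R p q : ℝ} (hR : 0 ≤ R) (hp : 0 < p) (hq : 0 < q)
    (hα : α (Icc (-R) R)ᶜ = 0) (hβ : β (Icc (-R) R)ᶜ = 0) (hκ : κ (Icc (-R) R)ᶜ = 0)
    (ha : α.real univ = p ^ 2) (hb : β.real univ = q ^ 2)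
    (H : ∀ s t s' t', α.real (Ioc s t) * β.real (Ioc s' t')
      ≤ κ.real (Ioc ((s + s') / 2) ((t + t') / 2)) ^ 2) :
    p * q * ((∫ x, x ∂α) / p ^ 2 - (∫ x, x ∂β) / q ^ 2) ^ 2 / 8 ≤
      ∫ x, (R ^ 2 - x ^ 2) ∂κ - (∫ x, (R ^ 2 - x ^ 2) ∂α + ∫ x, (R ^ 2 - x ^ 2) ∂β) / 2
        + 5 / 2 * R ^ 2 * (p - q) ^ 2 := by
  have main : ∀ N : ℕ, 0 < N → p * q * ((∫ x, x ∂α) / p ^ 2 - (∫ x, x ∂β) / q ^ 2) ^ 2 / 8 ≤
      ∫ x, (R ^ 2 - x ^ 2) ∂κ - (∫ x, (R ^ 2 - x ^ 2) ∂α + ∫ x, (R ^ 2 - x ^ 2) ∂β) / 2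
        + 5 / 2 * R ^ 2 * (p - q) ^ 2
        + (8 * p * q * R ^ 2 + 2 * (p ^ 2 + q ^ 2) * R ^ 2) / N := by
    intro N hN
    have hN' : (1 : ℝ) ≤ N := by exact_mod_cast hN
    obtain ⟨τ, t1, t2, t3, t4⟩ := exists_cuts α hR hα (by rw [ha]; positivity) hN
    obtain ⟨σ, s1, s2, s3, s4⟩ := exists_cuts β hR hβ (by rw [hb]; positivity) hN
    rw [ha] at t3; rw [hb] at s3
    have hg : Continuous fun x : ℝ => R ^ 2 - x ^ 2 := by fun_prop
    have hl : ∀ x ∈ Icc (-R) R, ∀ y ∈ Icc (-R) R,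
        |(R ^ 2 - x ^ 2) - (R ^ 2 - y ^ 2)| ≤ 2 * R * |x - y| := by
      intro x hx y hy
      have : (R ^ 2 - x ^ 2) - (R ^ 2 - y ^ 2) = -(x + y) * (x - y) := by ring
      rw [this, abs_mul]
      refine mul_le_mul_of_nonneg_right ?_ (abs_nonneg _)
      rw [abs_le]; constructor <;> linarith [hx.1, hx.2, hy.1, hy.2]
    have hl' : ∀ x ∈ Icc (-R) R, ∀ y ∈ Icc (-R) R, |x - y| ≤ 1 * |x - y| := by simp
    have q1 := quad α (by positivity) (by positivity) t1 t2 t3 t4 hg hl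
    have q2 := quad β (by positivity) (by positivity) s1 s2 s3 s4 hg hl
    have q3 := quad α zero_le_one (by positivity) t1 t2 t3 t4 continuous_id' hl'
    have q4 := quad β zero_le_one (by positivity) s1 s2 s3 s4 continuous_id' hl'
    have q5 := kappa_lower κ hR (w := p * q / N) (by positivity) hκ
      (c := fun k => (τ k + σ k) / 2) (N := N)
      (fun k => ⟨by linarith [(t1 k).1, (s1 k).1], by linarith [(t1 k).2, (s1 k).2]⟩)
      (fun k hk => by linarith [t2 k hk, s2 k hk])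
      (fun k hk => by
        have := H (τ k) (τ (k + 1)) (σ k) (σ (k + 1))
        rw [t3 k hk, s3 k hk] at this
        refine le_of_sq_le_sq ?_ measureReal_nonneg
        refine le_trans (le_of_eq ?_) this
        ring)
    refine final_alg (Sd := ∑ k ∈ Finset.range N, (τ k - σ k) ^ 2)
      (Sm := ∑ k ∈ Finset.range N, (τ k - σ k)) hp hq hR hN' q1 q2 q5 ?_ ?_ ?_ ?_
    · have := Finset.sum_le_sum fun k (_ : k ∈ Finset.range N) => ptwise hp.le hq.le (t1 k) (s1 k)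
      simp only [Finset.sum_sub_distrib, Finset.sum_add_distrib, ← Finset.sum_div,
        ← Finset.mul_sum, Finset.sum_const, Finset.card_range, nsmul_eq_mul] at this ⊢
      linarith
    · simpa using sq_sum_le_card_mul_sum_sq (s := Finset.range N) (f := fun k => τ k - σ k)
    · refine (Finset.abs_sum_le_sum_abs _ _).trans ?_
      have := Finset.sum_le_card_nsmul (Finset.range N) (fun k => |τ k - σ k|) (2 * R)
        fun k _ => by
          rw [abs_le]; constructor <;> linarith [(t1 k).1, (t1 k).2, (s1 k).1, (s1 k).2]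
      simpa using this
    · have e : (∫ x, x ∂α) / p ^ 2 - (∫ x, x ∂β) / q ^ 2 - (∑ k ∈ Finset.range N, (τ k - σ k)) / N
          = (∫ x, x ∂α - p ^ 2 / N * ∑ k ∈ Finset.range N, τ k) / p ^ 2
            - (∫ x, x ∂β - q ^ 2 / N * ∑ k ∈ Finset.range N, σ k) / q ^ 2 := by
        rw [Finset.sum_sub_distrib]; field_simp; ring
      rw [e]
      refine (abs_sub _ _).trans ?_
      rw [abs_div, abs_div, abs_of_pos (pow_pos hp 2), abs_of_pos (pow_pos hq 2)]
      have k1 := div_le_div_of_nonneg_right q3 (pow_pos hp 2).le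
      have k2 := div_le_div_of_nonneg_right q4 (pow_pos hq 2).le
      have e1 : p ^ 2 / N * 1 * (2 * R) / p ^ 2 = 2 * R / N := by field_simp
      have e2 : q ^ 2 / N * 1 * (2 * R) / q ^ 2 = 2 * R / N := by field_simp
      have e3 : 4 * R / N = 2 * R / N + 2 * R / N := by ring
      rw [e1] at k1; rw [e2] at k2
      linarith
  have ht := (tendsto_const_div_atTop_nhds_zero_nat
    (8 * p * q * R ^ 2 + 2 * (p ^ 2 + q ^ 2) * R ^ 2)).const_add
    (∫ x, (R ^ 2 - x ^ 2) ∂κ - (∫ x, (R ^ 2 - x ^ 2) ∂α + ∫ x, (R ^ 2 - x ^ 2) ∂β) / 2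
        + 5 / 2 * R ^ 2 * (p - q) ^ 2)
  rw [add_zero] at ht
  exact ge_of_tendsto ht (Filter.eventually_atTop.2 ⟨1, main⟩)

end Vale.Agent.P074
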