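import Vale.Agent.P074.Approx

open MeasureTheory Set
open scoped ENNReal NNReal InnerProductSpace

namespace Vale.Agent.P074

variable {E : Type} [NormedAddCommGroup E] [InnerProductSpace ℝ E] [FiniteDimensional ℝ E]
  [MeasurableSpace E] [BorelSpace E]

lemma core_delta (hd : 2 ≤ Module.finrank ℝ E) {K : Set E} (hK : IsCompact K) (hKc : Convex ℝ K)
    {x0 : E} {r : ℝ} (hr0 : 0 < r) (hr : Metric.closedBall x0 r ⊆ K) {R D : ℝ} (hR : 0 ≤ R)
    (hD : 0 ≤ D) (hKR : K ⊆ Metric.closedBall 0 R) {T S : E → E} (hT : Measurable T)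
    (hS : Measurable S) (hTD : ∀ᵐ x ∂(volume.restrict K), ‖T x‖ ≤ D)
    (hSD : ∀ᵐ x ∂(volume.restrict K), ‖S x‖ ≤ D)
    (hoT : ∀ U : E → E, Measurable U → (volume.restrict K).map U = (volume.restrict K).map T →
      ∫ x in K, ⟪U x, x⟫_ℝ ≤ ∫ x in K, ⟪T x, x⟫_ℝ)
    (hoS : ∀ U : E → E, Measurable U → (volume.restrict K).map U = (volume.restrict K).map S →
      ∫ x in K, ⟪U x, x⟫_ℝ ≤ ∫ x in K, ⟪S x, x⟫_ℝ)
    (π : Measure (E × E)) [IsFiniteMeasure π]
    (h1 : π.map Prod.fst = (volume.restrict K).map T)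
    (h2 : π.map Prod.snd = (volume.restrict K).map S) {l : ℝ} (hl0 : 0 < l) (hl1 : l < 1)
    {δ : ℝ} (hδ0 : 0 < δ) (hδ1 : δ ≤ 1) :
    ∫ x in K, ‖T x - S x‖ ^ 2 ≤ Module.finrank ℝ E *
      ((15 * ((320 * Module.finrank ℝ E + 12) * R ^ 2 *
        (2 * (∫ p, ‖p.1 - p.2‖ ^ 2 ∂π) + 8 * δ * volume.real K))
      + 5 * (8 * (D + 2) * R) * (8 * R * δ * volume.real K)) / (l * r) ^ 2
      + 24 * (D + 2) ^ 2 * (Module.finrank ℝ E * l * volume.real K)) := by
  have hms : MeasurableSet {z : E | ‖z‖ ≤ D} := measurableSet_le (by fun_prop) (by fun_prop)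
  have p1 : ∀ᵐ p ∂π, ‖p.1‖ ≤ D := by
    have := (ae_map_iff hT.aemeasurable hms).2 hTD
    rw [← h1] at this
    exact (ae_map_iff measurable_fst.aemeasurable hms).1 this
  have p2 : ∀ᵐ p ∂π, ‖p.2‖ ≤ D := by
    have := (ae_map_iff hS.aemeasurable hms).2 hSD
    rw [← h2] at this
    exact (ae_map_iff measurable_snd.aemeasurable hms).1 this
  obtain ⟨ι, _, a, b, A, hA, hm0, hab, hsum⟩ := quant π hδ0 (p1.and p2)
  have hπK : π.real univ = volume.real K := by
    have := congrArg (fun μ : Measure E => μ univ) h1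
    simp only [Measure.map_apply measurable_fst MeasurableSet.univ,
      Measure.map_apply hT MeasurableSet.univ, preimage_univ, Measure.restrict_apply_univ] at this
    simp [Measure.real, this]
  have hs : ∑ i, π.real (A i) = volume.real K := by
    have := hsum (fun _ => 1) (integrable_const _)
    simp only [integral_const, smul_eq_mul, mul_one, MeasurableSet.univ,
      measureReal_restrict_apply, univ_inter] at this
    rw [← this, hπK]
  have hKpos : 0 < volume.real K := ENNReal.toReal_pos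
    ((Metric.measure_closedBall_pos volume x0 hr0).trans_le (measure_mono hr)).ne'
    hK.measure_lt_top.ne
  have : Nonempty ι := by
    by_contra h
    rw [not_nonempty_iff] at h
    simp at hs; linarith
  obtain ⟨y, hya, hyi⟩ := no_collision hd a (fun i => b i - a i) hδ0
  obtain ⟨ψ0, ψ1, m0, m1, hψ⟩ := discrete hK hKc hR hKR (y := y) (v := fun i => b i - a i)
    (fun t _ => hyi t) hm0 hs
  have hy0 : Function.Injective y := by simpa using hyi 0
  have hy1 : Function.Injective fun i => y i + (b i - a i) := by simpa using hyi 1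
  have hne : ∀ i, (A i).Nonempty := fun i => nonempty_of_measure_ne_zero (μ := π) fun h => by
    have := hm0 i; simp [Measure.real, h] at this
  have d0 : ∀ i, ∀ p ∈ A i, ‖p.1 - y i‖ ≤ 2 * δ := fun i p hp => by
    have := norm_sub_le (p.1 - a i) (y i - a i)
    rw [sub_sub_sub_cancel_right] at this
    linarith [(hab i p hp).1, hya i]
  have d1 : ∀ i, ∀ p ∈ A i, ‖p.2 - (y i + (b i - a i))‖ ≤ 2 * δ := fun i p hp => by
    have := norm_sub_le (p.2 - b i) (y i - a i)
    have e : p.2 - b i - (y i - a i) = p.2 - (y i + (b i - a i)) := by abel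
    rw [e] at this
    linarith [(hab i p hp).2.1, hya i]
  have n0 : ∀ i, ‖y i‖ ≤ D + 2 := fun i => by
    obtain ⟨p, hp⟩ := hne i
    have := norm_sub_le p.1 (p.1 - y i)
    rw [sub_sub_cancel] at this
    linarith [d0 i p hp, (hab i p hp).2.2.1]
  have n1 : ∀ i, ‖y i + (b i - a i)‖ ≤ D + 2 := fun i => by
    obtain ⟨p, hp⟩ := hne i
    have := norm_sub_le p.2 (p.2 - (y i + (b i - a i)))
    rw [sub_sub_cancel] at this
    linarith [d1 i p hp, (hab i p hp).2.2.2]
  obtain ⟨e, he, -⟩ := exists_perp hd (0 : E)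
  have hKn : K.Nonempty := ⟨x0, hr (Metric.mem_closedBall_self hr0.le)⟩
  have hTL : ∀ᵐ x ∂(volume.restrict K), ‖T x‖ ≤ D + 2 := hTD.mono fun x hx => by linarith
  have hSL : ∀ᵐ x ∂(volume.restrict K), ‖S x‖ ≤ D + 2 := hSD.mono fun x hx => by linarith
  obtain ⟨g1, i1, j1, k1⟩ := gap hK hKn hKR hy0 n0 ψ0 hT hTL he hoT π measurable_fst h1 hA
    (fun i => by rw [m0]) hm0 d0 hsum
  obtain ⟨g2, i2, j2, k2⟩ := gap hK hKn hKR hy1 n1 ψ1 hS hSL he hoS π measurable_snd h2 hA
    (fun i => by rw [m1]) hm0 d1 hsum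
  have key := gn hK hKc hr0 hr hl0 hl1 (pot_cont' y ψ0) (pot_cont' _ ψ1) (L := D + 2)
    (G := 8 * (D + 2) * R) (by positivity) (by positivity) (pot_lip n1 ψ1) (pot_mid _ ψ1) hT hS
    (i1.add i2) (by
      filter_upwards [hTL, hSL, k1, k2] with x a1 a2 a3 a4
      exact ⟨a1, a2, by linarith [a3.1, a4.1], by linarith [a3.2.1, a4.2.1], a3.2.2, a4.2.2⟩)
  refine key.trans ?_
  have hV : ∑ i, π.real (A i) * ‖b i - a i‖ ^ 2
      ≤ 2 * (∫ p, ‖p.1 - p.2‖ ^ 2 ∂π) + 8 * δ * volume.real K := by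
    have hi : Integrable (fun p : E × E => ‖p.1 - p.2‖ ^ 2) π := by
      refine Integrable.of_bound (Measurable.aestronglyMeasurable (by fun_prop)) ((D + D) ^ 2) ?_
      filter_upwards [p1, p2] with p a1 a2
      rw [Real.norm_of_nonneg (sq_nonneg _)]
      exact pow_le_pow_left₀ (norm_nonneg _) ((norm_sub_le _ _).trans (add_le_add a1 a2)) 2
    have hi2 : Integrable (fun p : E × E => 2 * ‖p.1 - p.2‖ ^ 2 + 8 * δ) π :=
      (hi.const_mul 2).add (integrable_const _)
    have e : 2 * (∫ p, ‖p.1 - p.2‖ ^ 2 ∂π) + 8 * δ * volume.real K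
        = ∫ p, (2 * ‖p.1 - p.2‖ ^ 2 + 8 * δ) ∂π := by
      rw [integral_add (hi.const_mul 2) (integrable_const _), integral_const_mul, integral_const,
        hπK, smul_eq_mul, mul_comm (volume.real K)]
    rw [e, hsum _ hi2]
    refine Finset.sum_le_sum fun i _ => ?_
    rw [← smul_eq_mul, ← setIntegral_const]
    refine setIntegral_mono_on (integrableOn_const (measure_ne_top _ _)) hi2.integrableOn (hA i)
      fun p hp => ?_
    have a1 : ‖b i - a i‖ ≤ ‖p.1 - p.2‖ + 2 * δ := by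
      have e : b i - a i = (p.1 - a i) - (p.2 - b i) - (p.1 - p.2) := by abel
      rw [e]
      linarith [norm_sub_le ((p.1 - a i) - (p.2 - b i)) (p.1 - p.2),
        norm_sub_le (p.1 - a i) (p.2 - b i), (hab i p hp).1, (hab i p hp).2.1]
    refine (pow_le_pow_left₀ (norm_nonneg _) a1 2).trans ?_
    nlinarith [sq_nonneg (‖p.1 - p.2‖ - 2 * δ)]
  have q1 := pot_diff hK hKR hy0 hy1 m0 m1
  have q2 : ∫ x in K, (pot y ψ0 x - pot (fun i => y i + (b i - a i)) ψ1 x) ^ 2 ≤
      (320 * Module.finrank ℝ E + 12) * R ^ 2 *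
        (2 * (∫ p, ‖p.1 - p.2‖ ^ 2 ∂π) + 8 * δ * volume.real K) := by
    refine le_trans ?_ (mul_le_mul_of_nonneg_left hV (by positivity))
    linarith
  have q3 : ∫ x in K, (g1 x + g2 x) ≤ 8 * R * δ * volume.real K := by
    rw [integral_add i1 i2]; linarith
  gcongr

lemma core (hd : 2 ≤ Module.finrank ℝ E) {K : Set E} (hK : IsCompact K) (hKc : Convex ℝ K)
    {x0 : E} {r : ℝ} (hr0 : 0 < r) (hr : Metric.closedBall x0 r ⊆ K) {R D : ℝ} (hR : 0 ≤ R)
    (hD : 0 ≤ D) (hKR : K ⊆ Metric.closedBall 0 R) {T S : E → E} (hT : Measurable T)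
    (hS : Measurable S) (hTD : ∀ᵐ x ∂(volume.restrict K), ‖T x‖ ≤ D)
    (hSD : ∀ᵐ x ∂(volume.restrict K), ‖S x‖ ≤ D)
    (hoT : ∀ U : E → E, Measurable U → (volume.restrict K).map U = (volume.restrict K).map T →
      ∫ x in K, ⟪U x, x⟫_ℝ ≤ ∫ x in K, ⟪T x, x⟫_ℝ)
    (hoS : ∀ U : E → E, Measurable U → (volume.restrict K).map U = (volume.restrict K).map S →
      ∫ x in K, ⟪U x, x⟫_ℝ ≤ ∫ x in K, ⟪S x, x⟫_ℝ)
    (π : Measure (E × E)) [IsFiniteMeasure π]
    (h1 : π.map Prod.fst = (volume.restrict K).map T)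
    (h2 : π.map Prod.snd = (volume.restrict K).map S) {l : ℝ} (hl0 : 0 < l) (hl1 : l < 1) :
    ∫ x in K, ‖T x - S x‖ ^ 2 ≤
      (30 * Module.finrank ℝ E * (320 * Module.finrank ℝ E + 12) * R ^ 2 / r ^ 2)
        * (∫ p, ‖p.1 - p.2‖ ^ 2 ∂π) / l ^ 2
      + 24 * (D + 2) ^ 2 * Module.finrank ℝ E ^ 2 * l * volume.real K := by
  refine le_of_forall_small (D := Module.finrank ℝ E *
    ((15 * ((320 * Module.finrank ℝ E + 12) * R ^ 2 * (8 * volume.real K))
      + 5 * (8 * (D + 2) * R) * (8 * R * volume.real K)) / (l * r) ^ 2)) fun n => ?_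
  have hn : (0 : ℝ) < (n : ℝ) + 1 := by positivity
  refine (core_delta hd hK hKc hr0 hr hR hD hKR hT hS hTD hSD hoT hoS π h1 h2 hl0 hl1
    (δ := 1 / ((n : ℝ) + 1)) (by positivity)
    (by rw [div_le_one hn]; linarith [n.cast_nonneg (α := ℝ)])).trans (le_of_eq ?_)
  field_simp
  ring

lemma optimize {a w α β M : ℝ} (hα : 0 ≤ α) (hβ : 0 ≤ β) (hw : 0 ≤ w) (hM : w + 2 ≤ M)
    (h : ∀ l : ℝ, 0 < l → l < 1 → a ≤ α * w / l ^ 2 + β * l) :
    √a ≤ √(α * M ^ 2 + β) * (√w) ^ (1 / 3 : ℝ) := by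
  rcases hw.eq_or_lt with rfl | hw
  · have : a ≤ 0 := le_of_forall_small (D := β) fun n => by
      have hn : (0 : ℝ) < (n : ℝ) + 1 := by positivity
      have := h (1 / ((n : ℝ) + 2)) (by positivity)
        (by rw [div_lt_one (by positivity)]; linarith)
      have k : β * (1 / ((n : ℝ) + 2)) ≤ β / ((n : ℝ) + 1) := by
        rw [mul_one_div]; exact div_le_div_of_nonneg_left hβ hn (by linarith)
      simp only [mul_zero, zero_div] at this
      linarith
    rw [Real.sqrt_eq_zero_of_nonpos this]; positivity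
  set s := (√w) ^ (1 / 3 : ℝ) with hs
  have s0 : 0 < s := Real.rpow_pos_of_pos (Real.sqrt_pos.2 hw) _
  have s3 : s ^ 3 = √w := by
    rw [hs, ← Real.rpow_natCast, ← Real.rpow_mul (Real.sqrt_nonneg _)]; norm_num
  have s6 : (s ^ 2) ^ 3 = w := by
    rw [← pow_mul, mul_comm, pow_mul, s3, Real.sq_sqrt hw.le]
  set t := s ^ 2 with ht
  have t0 : 0 < t := by positivity
  have hM1 : 1 ≤ M := by linarith
  have t1 : t < M := by
    by_contra hc
    push Not at hc
    have : t ≤ t ^ 3 := le_self_pow₀ (by linarith) (by norm_num)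
    linarith
  have k := h (t / M) (by positivity) ((div_lt_one (by linarith)).2 t1)
  have e : α * w / (t / M) ^ 2 = α * M ^ 2 * t := by rw [← s6]; field_simp
  have k2 : β * (t / M) ≤ β * t := mul_le_mul_of_nonneg_left (div_le_self t0.le hM1) hβ
  rw [← Real.sqrt_sq s0.le, ← Real.sqrt_mul (by positivity)]
  refine Real.sqrt_le_sqrt ?_
  rw [e] at k
  linarith

end Vale.Agent.P074
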